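import Vale.Agent.P245.H916.SCT
import Vale.Agent.P245.H888.Ker

/-! # P245 (helper916): the pushed posterior densities as families, and the kernel lemma averaged
over the channel output -/

set_option linter.all false

open MeasureTheory Real Set Filter Topology
open scoped ENNReal ContDiff

namespace Vale.Agent.P245.H468.AV

open LS E1 H468

variable {n : ℕ} {W : Type*} [MeasurableSpace W] {γ : Measure W} {g : W → ℝ}

section fam

variable {μ : Measure (Fin n → ℝ)} [IsProbabilityMeasure μ] {R : ℝ} {s r : ℝ}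
  {N : (Fin n → ℝ) → ℝ} {l : W → (Fin n → ℝ) → ℝ}

/-- unnormalised posterior density -/
def Mw (N : (Fin n → ℝ) → ℝ) (l : W → (Fin n → ℝ) → ℝ) (w : W) (y : Fin n → ℝ) : ℝ := N y * l w y

/-- pushed unnormalised posterior density -/
noncomputable def Uw (μ : Measure (Fin n → ℝ)) (s r : ℝ) (N : (Fin n → ℝ) → ℝ)
    (l : W → (Fin n → ℝ) → ℝ) (w : W) : (Fin n → ℝ) → ℝ := UL μ s r (Mw N l w)

/-- score difference `D log l''` -/
noncomputable def hw (μ : Measure (Fin n → ℝ)) (s r : ℝ) (N : (Fin n → ℝ) → ℝ)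
    (l : W → (Fin n → ℝ) → ℝ) (k : Fin n) (w : W) (y : Fin n → ℝ) : ℝ :=
  sN (Uw μ s r N l w) k y - sN (UL μ s r N) k y

theorem Mw_pos (hN : Pos N) (hl : SC γ g l) (w : W) : Pos (Mw N l w) := hl.pos_mul hN w

theorem mb_Mw (hg : Out γ g) (hN : Pos N) (hl : SC γ g l) : MB g (Mw N l) :=
  (MB.of_bm hg (SB.bm hN.sb)).mul hl.mb

theorem mb_pdMw (hg : Out γ g) (hN : Pos N) (hl : SC γ g l) (i : Fin n) :
    MB g fun w y => pd (Mw N l w) i y := by
  have e : (fun (w : W) (y : Fin n → ℝ) => pd (Mw N l w) i y)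
      = fun w y => N y * pd (l w) i y + pd N i y * l w y := by
    funext w y
    have e1 : Mw N l w = fun y => N y * l w y := rfl
    rw [e1, LS.pd_mul hN.sb.differentiable (hl.sb w).differentiable]
  rw [e]
  exact ((MB.of_bm hg (SB.bm hN.sb)).mul (hl.dm i)).add hg
    ((MB.of_bm hg (SB.bm (hN.sb.pd i))).mul hl.mb)

theorem mb_invMw (hg : Out γ g) (hN : Pos N) (hl : SC γ g l) :
    MB g fun w y => (Mw N l w y)⁻¹ := by
  have e : (fun (w : W) (y : Fin n → ℝ) => (Mw N l w y)⁻¹) = fun w y => (N y)⁻¹ * (l w y)⁻¹ := by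
    funext w y
    unfold Mw
    rw [mul_inv]
  rw [e]
  exact (MB.of_bm hg (SB.bm hN.inv.sb)).mul (MB.inv_ch hl.ch)

theorem mb_Uw (hg : Out γ g) (h : CSupp μ R) (hN : Pos N) (hl : SC γ g l) :
    MB g (Uw μ s r N l) := (mb_Mw hg hN hl).ul h s r

theorem mb_ULpd (hg : Out γ g) (h : CSupp μ R) (hN : Pos N) (hl : SC γ g l) (i : Fin n) :
    MB g fun w y => UL μ s r (pd (Mw N l w) i) y := (mb_pdMw hg hN hl i).ul h s r

theorem Uw_pos (h : CSupp μ R) (hs : 0 < s) (hsr : s ≤ r) (hN : Pos N) (hl : SC γ g l) (w : W) :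
    Pos (Uw μ s r N l w) := UL_pos h hs hsr (Mw_pos hN hl w)

theorem mb_pdUw (hg : Out γ g) (h : CSupp μ R) (hs : 0 < s) (hsr : s ≤ r) (hN : Pos N)
    (hl : SC γ g l) (i : Fin n) : MB g fun w y => pd (Uw μ s r N l w) i y := by
  have hX : ∀ i, SB (XB μ s i) := fun i => (thR' n μ R h).1 s i hs
  have hXr : ∀ i, SB (XB μ r i) := fun i => (thR' n μ R h).1 r i (hs.trans_le hsr)
  have f3 : MB g fun w y => UL μ s r (fun y' => Mw N l w y' * XB μ s i y') y :=
    ((mb_Mw hg hN hl).mul (MB.of_bm hg (SB.bm (hX i)))).ul h s r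
  have e : (fun (w : W) (y : Fin n → ℝ) => pd (Uw μ s r N l w) i y)
      = fun w y => r⁻¹ * (UL μ s r (fun y' => Mw N l w y' * XB μ s i y') y
        - XB μ r i y * Uw μ s r N l w y + s * UL μ s r (pd (Mw N l w) i) y) := by
    funext w y
    exact pd_UL h (Mw_pos hN hl w) hs hsr i y
  rw [e]
  exact MB.const_mul hg _ ((f3.sub hg ((MB.of_bm hg (SB.bm (hXr i))).mul
    (mb_Uw hg h hN hl))).add hg (MB.const_mul hg _ (mb_ULpd hg h hN hl i)))

variable [IsProbabilityMeasure γ]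

theorem mb_invUw (hg : Out γ g) (h : CSupp μ R) (hs : 0 < s) (hsr : s ≤ r) (hN : Pos N)
    (hl : SC γ g l) : MB g fun w y => (Uw μ s r N l w y)⁻¹ := by
  have hU := UL_pos (μ := μ) h hs hsr hN
  have e : (fun (w : W) (y : Fin n → ℝ) => (Uw μ s r N l w y)⁻¹)
      = fun w y => (UL μ s r N y)⁻¹ * (tl μ s r N l w y)⁻¹ := by
    funext w y
    rw [← mul_inv, tl_mul hg h hs hsr hN l w y]
    rfl
  rw [e]
  exact (MB.of_bm hg (SB.bm hU.inv.sb)).mul (MB.inv_ch (SC.tl hg h hs hsr hN hl).ch)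

theorem mb_sNUw (hg : Out γ g) (h : CSupp μ R) (hs : 0 < s) (hsr : s ≤ r) (hN : Pos N)
    (hl : SC γ g l) (i : Fin n) : MB g fun w y => sN (Uw μ s r N l w) i y :=
  (mb_pdUw hg h hs hsr hN hl i).mul (mb_invUw hg h hs hsr hN hl)

theorem mb_hw (hg : Out γ g) (h : CSupp μ R) (hs : 0 < s) (hsr : s ≤ r) (hN : Pos N)
    (hl : SC γ g l) (i : Fin n) : MB g fun w y => hw μ s r N l i w y :=
  (mb_sNUw hg h hs hsr hN hl i).sub hg (MB.of_bm hg (SB.bm
    ((UL_pos (μ := μ) h hs hsr hN).div ((UL_pos (μ := μ) h hs hsr hN).sb.pd i))))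

theorem mb_us (hg : Out γ g) (h : CSupp μ R) (hs : 0 < s) (hsr : s ≤ r) (hN : Pos N)
    (hl : SC γ g l) (i : Fin n) : MB g fun w y => us μ s r (Mw N l w) i y :=
  (mb_ULpd hg h hN hl i).mul (mb_invUw hg h hs hsr hN hl)

theorem mb_mm (hg : Out γ g) (h : CSupp μ R) (hs : 0 < s) (hsr : s ≤ r) (hN : Pos N)
    (hl : SC γ g l) (i : Fin n) : MB g fun w y => mm μ s r (Mw N l w) i y :=
  (mb_us hg h hs hsr hN hl i).sub hg (mb_sNUw hg h hs hsr hN hl i)

/-- `∫ U_w h_w dγ(w) = 0` -/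
theorem int_hw (hg : Out γ g) (h : CSupp μ R) (hs : 0 < s) (hsr : s ≤ r) (hN : Pos N)
    (hl : SC γ g l) (k : Fin n) (y : Fin n → ℝ) :
    ∫ w, Uw μ s r N l w y * hw μ s r N l k w y ∂γ = 0 := by
  have hU := UL_pos (μ := μ) h hs hsr hN
  have hT := SC.tl hg h hs hsr hN hl
  have e : (fun w => Uw μ s r N l w y * hw μ s r N l k w y)
      = fun w => UL μ s r N y * pd (tl μ s r N l w) k y := by
    funext w
    have hUy := (hU.pos y).ne'
    have hW := ((Uw_pos (μ := μ) h hs hsr hN hl w).pos y).ne'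
    have e2 : Uw μ s r N l w = fun y => UL μ s r N y * tl μ s r N l w y := by
      funext y
      exact (tl_mul hg h hs hsr hN l w y).symm
    have e3 : pd (Uw μ s r N l w) k y
        = UL μ s r N y * pd (tl μ s r N l w) k y + pd (UL μ s r N) k y * tl μ s r N l w y := by
      rw [e2, LS.pd_mul hU.sb.differentiable (hT.sb w).differentiable]
    have e4 : Uw μ s r N l w y = UL μ s r N y * tl μ s r N l w y := congrFun e2 y
    unfold hw sN
    rw [e3, mul_sub, mul_div_cancel₀ _ hW, e4]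
    field_simp
    ring
  rw [e, integral_const_mul, hT.avg_pd hg k y, mul_zero]

end fam

/-! ### the kernel lemma, averaged -/

section k4

variable {ρ0 : (Fin n → ℝ) → ℝ} {R : ℝ} {s r : ℝ}
  {N : (Fin n → ℝ) → ℝ} {l : W → (Fin n → ℝ) → ℝ} [IsProbabilityMeasure γ]

theorem FI_cm (μ : Measure (Fin n → ℝ)) (r : ℝ) {M : (Fin n → ℝ) → ℝ} (hM : Pos M) {c : ℝ}
    (hc : 0 < c) : FI μ r (fun y => c * M y) = c * FI μ r M := by
  unfold FI
  rw [← EY_const_mul]
  congr 1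
  funext y
  have e : ∀ i, pd (fun y => c * M y) i y = c * pd M i y := by
    intro i
    rw [LS.pd_mul (differentiable_const _) hM.sb.differentiable]
    have e2 : pd (fun _ : Fin n → ℝ => c) i y = 0 := by
      unfold pd; rw [fderiv_const_apply]; rfl
    beta_reduce
    rw [e2]
    ring
  simp only [e]
  have h1 := hM.pos y
  rw [Finset.sum_div, Finset.sum_div, Finset.mul_sum]
  refine Finset.sum_congr rfl fun i _ => ?_
  field_simp

/-- Fisher information of the unnormalised posteriors -/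
theorem ms_FI_po (hN : Pos N) (hl : SC γ g l) (μ : Measure (Fin n → ℝ)) [IsProbabilityMeasure μ]
    (w : W) : ms μ r N l w * FI μ r (po μ r N l w) = FI μ r (Mw N l w) := by
  have hm := ms_pos (μ := μ) (r := r) hN hl.ch w
  have e : po μ r N l w = fun y => (ms μ r N l w)⁻¹ * Mw N l w y := rfl
  rw [e, FI_cm μ r (Mw_pos hN hl w) (inv_pos.2 hm), ← mul_assoc, mul_inv_cancel₀ hm.ne', one_mul]

/-- `s ∫ E |mm_w|² ≤ (r - s) (FI_s + JF_s - FI_r - JF_r)` -/
theorem avg_mm (hg : Out γ g) (hLC : LCd ρ0) [IsProbabilityMeasure (mu ρ0)]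
    (h : CSupp (mu ρ0) R) (hs : 0 < s) (hsr : s ≤ r) (hN : Pos N) (hl : SC γ g l) :
    s * ∫ w, EY (mu ρ0) r (fun y => Uw (mu ρ0) s r N l w y *
        ∑ i, mm (mu ρ0) s r (Mw N l w) i y ^ 2) ∂γ
      ≤ (r - s) * (FI (mu ρ0) s N + JF γ (mu ρ0) s N l
        - (FI (mu ρ0) r (UL (mu ρ0) s r N)
          + JF γ (mu ρ0) r (UL (mu ρ0) s r N) (tl (mu ρ0) s r N l))) := by
  have hU := UL_pos (μ := mu ρ0) h hs hsr hN
  have hT := SC.tl hg h hs hsr hN hl
  obtain ⟨i2, e2⟩ := avg_fi (μ := mu ρ0) (r := s) hg hN hl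
  obtain ⟨i3, e3⟩ := avg_fi (μ := mu ρ0) (r := r) hg hU hT
  have hB : MB g fun w y => Uw (mu ρ0) s r N l w y * ∑ i, mm (mu ρ0) s r (Mw N l w) i y ^ 2 :=
    (mb_Uw hg h hN hl).mul (MB.sum hg _ fun i _ => (mb_mm hg h hs hsr hN hl i).sq)
  have i1 := hB.ey_int (μ := mu ρ0) hg r
  rw [← e2, ← e3, ← integral_sub i2 i3, ← integral_const_mul, ← integral_const_mul]
  refine integral_mono (i1.const_mul _) ((i2.sub i3).const_mul _) fun w => ?_
  have k := H888.ker_mm hLC h (Mw_pos hN hl w) hs hsr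
  have e4 : E1.IP (mu ρ0) r (UL (mu ρ0) s r (Mw N l w)) (mm (mu ρ0) s r (Mw N l w))
      (mm (mu ρ0) s r (Mw N l w)) = EY (mu ρ0) r (fun y => Uw (mu ρ0) s r N l w y *
        ∑ i, mm (mu ρ0) s r (Mw N l w) i y ^ 2) := by
    unfold E1.IP
    congr 1
    funext y
    simp only [pow_two]
    rfl
  rw [e4] at k
  have e5 := ms_FI_po (r := s) hN hl (mu ρ0) w
  have e6 : ms (mu ρ0) r (UL (mu ρ0) s r N) (tl (mu ρ0) s r N l) w
      * FI (mu ρ0) r (po (mu ρ0) r (UL (mu ρ0) s r N) (tl (mu ρ0) s r N l) w)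
      = FI (mu ρ0) r (UL (mu ρ0) s r (Mw N l w)) := by
    rw [ms_FI_po (r := r) hU hT (mu ρ0) w]
    congr 1
    funext y
    exact tl_mul hg h hs hsr hN l w y
  show s * _ ≤ (r - s) * (ms (mu ρ0) s N l w * FI (mu ρ0) s (po (mu ρ0) s N l w)
    - ms (mu ρ0) r (UL (mu ρ0) s r N) (tl (mu ρ0) s r N l) w
      * FI (mu ρ0) r (po (mu ρ0) r (UL (mu ρ0) s r N) (tl (mu ρ0) s r N l) w))
  rw [e5, e6]
  exact k

theorem avg_mm' (hg : Out γ g) (hLC : LCd ρ0) [IsProbabilityMeasure (mu ρ0)]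
    (h : CSupp (mu ρ0) R) (hs : 0 < s) (hsr : s ≤ r) (hN : Pos N) (hl : SC γ g l) :
    ∫ w, EY (mu ρ0) r (fun y => Uw (mu ρ0) s r N l w y *
        ∑ i, mm (mu ρ0) s r (Mw N l w) i y ^ 2) ∂γ
      ≤ (r - s) / s * (FI (mu ρ0) s N + JF γ (mu ρ0) s N l) := by
  have k := avg_mm hg hLC h hs hsr hN hl
  have hU := UL_pos (μ := mu ρ0) h hs hsr hN
  have hT := SC.tl hg h hs hsr hN hl
  have h1 : 0 ≤ FI (mu ρ0) r (UL (mu ρ0) s r N) := by
    unfold FI
    exact EY_nonneg _ _ fun y => div_nonneg (Finset.sum_nonneg fun i _ => sq_nonneg _)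
      (hU.pos y).le
  have h2 := JF_nonneg (μ := mu ρ0) (r := r) hU hT
  have h3 : s * ∫ w, EY (mu ρ0) r (fun y => Uw (mu ρ0) s r N l w y *
        ∑ i, mm (mu ρ0) s r (Mw N l w) i y ^ 2) ∂γ
      ≤ (r - s) * (FI (mu ρ0) s N + JF γ (mu ρ0) s N l) :=
    k.trans (mul_le_mul_of_nonneg_left (by linarith) (sub_nonneg.2 hsr))
  rw [div_mul_eq_mul_div, le_div_iff₀ hs]
  linarith

end k4

end Vale.Agent.P245.H468.AV
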