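import Vale.Agent.P245.H916.Upper
import Vale.Agent.P245.H507.G3

/-! # P245 (helper916): Lemma U, the upper half for the Gaussian reveal channel, in the form
`H507.Up` -/

set_option linter.all false

open MeasureTheory Real Set Filter Topology
open scoped ENNReal ContDiff

namespace Vale.Agent.P245.H468.AV

open LS E1 H468

variable {n m : ℕ}

/-- second moment of a linear functional of the score of the channel -/
theorem h0_lin_int {t : ℝ} {φ : Fin m → (Fin n → ℝ) → ℝ} (ht : 0 ≤ t) (y : Fin n → ℝ)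
    (v : Fin n → Fin n → ℝ) :
    ∫ z, RL t φ z y * ∑ j, (∑ k, v j k * h0 t φ z k y) ^ 2 ∂(gsn m)
      = t * ∑ a, ∑ j, (∑ k, v j k * pd (φ a) k y) ^ 2 := by
  have e0 : (fun z => RL t φ z y * ∑ j, (∑ k, v j k * h0 t φ z k y) ^ 2)
      = fun z => lr t z (fv φ y) *
        (∑ j, (∑ k, v j k * (√t * ∑ a, (z a - √t * fv φ y a) * pd (φ a) k y)) ^ 2) := rfl
  rw [e0, integral_lr ht (fv φ y)]
  have e : ∀ z : Fin m → ℝ, ∑ j, (∑ k, v j k * (√t * ∑ a, ((z a + √t * fv φ y a)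
      - √t * fv φ y a) * pd (φ a) k y)) ^ 2
      = ∑ j, (0 + ∑ a, z a * (√t * ∑ k, v j k * pd (φ a) k y)) ^ 2 := by
    intro z
    apply Finset.sum_congr rfl; intro j _
    congr 1
    rw [zero_add]
    simp only [Finset.mul_sum]
    rw [Finset.sum_comm]
    apply Finset.sum_congr rfl; intro a _
    apply Finset.sum_congr rfl; intro k _
    ring
  simp_rw [e]
  have hi : ∀ j : Fin n, Integrable (fun z : Fin m → ℝ =>
      (0 + ∑ a, z a * (√t * ∑ k, v j k * pd (φ a) k y)) ^ 2) (gsn m) := by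
    intro j
    have hl : EG1 fun z : Fin m → ℝ => 0 + ∑ a, z a * (√t * ∑ k, v j k * pd (φ a) k y) := by
      refine (EG1.const _).add (EG1.sum (n := m) Finset.univ
        (φ := fun a z => z a * (√t * ∑ k, v j k * pd (φ a) k y)) fun a _ => ?_)
      have := (EG1.coord (n := m) a).const_mul (√t * ∑ k, v j k * pd (φ a) k y)
      simpa [mul_comm] using this
    have := (hl.mul hl).integrable
      (by (clear * -; exact Continuous.aestronglyMeasurable (by fun_prop)))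
    simpa only [sq] using this
  rw [integral_finsetSum _ fun j _ => hi j]
  simp_rw [gauss_affine_sq]
  have e1 : ∀ (j : Fin n) (a : Fin m), (√t * ∑ k, v j k * pd (φ a) k y) ^ 2
      = t * (∑ k, v j k * pd (φ a) k y) ^ 2 := fun j a => by
    rw [mul_pow, sq_sqrt ht]
  simp only [e1, ne_eq, OfNat.ofNat_ne_zero, not_false_eq_true, zero_pow, zero_add]
  rw [Finset.sum_comm]
  simp only [Finset.mul_sum]

section main

variable {N : (Fin n → ℝ) → ℝ} {φ : Fin m → (Fin n → ℝ) → ℝ}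

/-- the score of the reveal channel -/
theorem h0w_RL (hN : Pos N) (hφ : ∀ a, SB (φ a)) {c : ℝ} (hc : 0 ≤ c) (k : Fin n)
    (w : Fin m → ℝ) (x : Fin n → ℝ) : h0w N (RL c φ) k w x = h0 c φ w k x := by
  have hNx := (hN.pos x).ne'
  have hlx := ((RL_pos hφ c w).pos x).ne'
  have e1 : pd (Mw N (RL c φ) w) k x = N x * pd (RL c φ w) k x + pd N k x * RL c φ w x := by
    have e2 : Mw N (RL c φ) w = fun y => N y * RL c φ w y := rfl
    rw [e2, LS.pd_mul hN.sb.differentiable (RL_pos hφ c w).sb.differentiable]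
  unfold h0w sN
  rw [e1, pd_RL hφ hc w k x]
  unfold Mw h0
  field_simp
  ring

/-- the second root of `upU` for the reveal channel -/
theorem avg_AQ {μ : Measure (Fin n → ℝ)} [IsProbabilityMeasure μ] (hN : Pos N)
    (hφ : ∀ a, SB (φ a)) {c : ℝ} (hc : 0 ≤ c) {Q : Fin n → Fin n → (Fin n → ℝ) → ℝ}
    (hQ : ∀ j k, SB (Q j k)) (s : ℝ) :
    ∫ w, EY μ s (fun x => Mw N (RL c φ) w x *
        ∑ j, (h0w N (RL c φ) j w x - ∑ k, Q j k x * h0w N (RL c φ) k w x) ^ 2) ∂(gsn m)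
      = c * EY μ s (fun x => N x * ∑ a, ∑ j,
          (pd (φ a) j x - ∑ k, Q j k x * pd (φ a) k x) ^ 2) := by
  have hg := out_gw m
  have hl : SC (gsn m) (gw m) (RL c φ) := SC.of_sch (sch_RL hφ hc)
  have m0 := fun k => mb_h0w hg hN hl k
  have mQ : ∀ j k, MB (n := n) (gw m) fun (w : Fin m → ℝ) x => Q j k x := fun j k =>
    MB.of_bm hg (SB.bm (hQ j k))
  have m1 : MB (gw m) fun w x => Mw N (RL c φ) w x *
      ∑ j, (h0w N (RL c φ) j w x - ∑ k, Q j k x * h0w N (RL c φ) k w x) ^ 2 :=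
    (mb_Mw hg hN hl).mul (MB.sum hg _ fun j _ =>
      ((m0 j).sub hg (MB.sum hg _ fun k _ => (mQ j k).mul (m0 k))).sq)
  rw [m1.fub hg s, ← EY_const_mul]
  congr 1
  funext x
  have e1 : (fun w => Mw N (RL c φ) w x *
      ∑ j, (h0w N (RL c φ) j w x - ∑ k, Q j k x * h0w N (RL c φ) k w x) ^ 2)
      = fun w => N x * (RL c φ w x * ∑ j,
        (∑ k, ((if j = k then (1 : ℝ) else 0) - Q j k x) * h0 c φ w k x) ^ 2) := by
    funext w
    unfold Mw
    rw [mul_assoc]
    congr 2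
    refine Finset.sum_congr rfl fun j _ => ?_
    congr 1
    simp only [h0w_RL hN hφ hc, sub_mul, ite_mul, one_mul, zero_mul, Finset.sum_sub_distrib,
      Finset.sum_ite_eq, Finset.mem_univ, if_true]
  rw [e1, integral_const_mul, h0_lin_int hc x
    (fun j k => (if j = k then (1 : ℝ) else 0) - Q j k x)]
  have e2 : ∀ (a : Fin m) (j : Fin n),
      (∑ k, ((if j = k then (1 : ℝ) else 0) - Q j k x) * pd (φ a) k x)
      = pd (φ a) j x - ∑ k, Q j k x * pd (φ a) k x := by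
    intro a j
    simp only [sub_mul, ite_mul, one_mul, zero_mul, Finset.sum_sub_distrib,
      Finset.sum_ite_eq, Finset.mem_univ, if_true]
  simp only [e2]
  ring

/-- **upper half of Lemma U** for the reveal channel, in the form of row G3 -/
theorem up_holds {ρ0 : (Fin n → ℝ) → ℝ} {R : ℝ} {s r c : ℝ} (hLC : LCd ρ0)
    [IsProbabilityMeasure (mu ρ0)] (h : CSupp (mu ρ0) R) (hs : 0 < s) (hsr : s < r)
    (hN : Pos N) (hφ : ∀ a, SB (φ a)) (hc : 0 ≤ c) {Q : Fin n → Fin n → (Fin n → ℝ) → ℝ}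
    (hQ : ∀ j k, SB (Q j k)) : H507.Up (mu ρ0) s r c N φ Q := by
  have hg := out_gw m
  have hl : SC (gsn m) (gw m) (RL c φ) := SC.of_sch (sch_RL hφ hc)
  have k := upU (μ := mu ρ0) hg h hs hsr hN hl hQ
  rw [avg_AQ hN hφ hc hQ s] at k
  have k2 := avg_mm' (γ := gsn m) hg hLC h hs hsr.le hN hl
  rw [JF_eq, JF_RL hN hφ hc] at k2
  have k3 := sqrt_le_sqrt k2
  have e1 : H507.JT (mu ρ0) s r c N φ = JT (gsn m) (mu ρ0) s r N (RL c φ) := rfl
  unfold H507.Up H507.UR
  rw [e1]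
  have e2 : EY (mu ρ0) s (fun x => N x * H401.hsq Q x)
      = EY (mu ρ0) s (fun x => N x * ∑ j, ∑ k, Q j k x ^ 2) := rfl
  have e3 : EY (mu ρ0) s (fun x => N x * ∑ j, H401.dvq (mu ρ0) s N Q j x ^ 2)
      = EY (mu ρ0) s (fun x => N x * ∑ j, (∑ k, (pd (Q j k) k x
        + Q j k x * (sN N k x - DV (mu ρ0) s k x))) ^ 2) := rfl
  have e4 : H468.DE (mu ρ0) s N φ
      = EY (mu ρ0) s (fun x => N x * ∑ a, ∑ j, pd (φ a) j x ^ 2) := rfl
  rw [e2, e3] at k
  rw [e4] at k3
  linarith only [k, k3]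

end main

end Vale.Agent.P245.H468.AV
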