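import Vale.Agent.P245.H916.SCT
import Vale.Agent.P245.H468.ChR

/-! # P245 (helper916): the lower half of Lemma U for the Gaussian reveal channel of H468 -/

set_option linter.all false

open MeasureTheory Real Set Filter Topology
open scoped ENNReal ContDiff

namespace Vale.Agent.P245.H468.AV

open LS E1 H468

section bridge

variable {n : ℕ} {W : Type*} [MeasurableSpace W] {γ : Measure W} {g : W → ℝ}

theorem SC.of_sch {l : W → (Fin n → ℝ) → ℝ} (hl : SCh γ g l) : SC γ g l := by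
  obtain ⟨K, hK0, hK⟩ := hl.pdb
  exact ⟨hl.ch, fun w => (hl.pos w).sb, fun i => ⟨hl.pdm i, K, hK0, fun w y => hK w y i⟩⟩

theorem SC.to_sch (hg : Out γ g) {l : W → (Fin n → ℝ) → ℝ} (hl : SC γ g l) : SCh γ g l := by
  have h : ∀ i, ∃ K, 0 ≤ K ∧ ∀ w y, |pd (l w) i y| ≤ exp (K * g w) := fun i => (hl.dm i).bd
  choose K hK0 hK using h
  refine ⟨hl.ch, hl.pos, fun i => (hl.dm i).meas, ∑ i, K i,
    Finset.sum_nonneg fun i _ => hK0 i, fun w y i => (hK i w y).trans (exp_le_exp.2 ?_)⟩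
  exact mul_le_mul_of_nonneg_right
    (Finset.single_le_sum (f := K) (fun j _ => hK0 j) (Finset.mem_univ i)) (hg.pos w).le

theorem JF_eq (μ : Measure (Fin n → ℝ)) (r : ℝ) (N : (Fin n → ℝ) → ℝ)
    (l : W → (Fin n → ℝ) → ℝ) : JF γ μ r N l = H468.JF γ μ r N l := by
  unfold JF H468.JF
  congr 1
  funext w
  congr 1
  funext y
  rw [Finset.sum_div]
  simp only [div_eq_mul_inv]

end bridge

section low

variable {n m : ℕ} {ρ0 : (Fin n → ℝ) → ℝ} {R : ℝ} {s r : ℝ} {N : (Fin n → ℝ) → ℝ}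
  {φ : Fin m → (Fin n → ℝ) → ℝ}

/-- **lower half of Lemma U**, Gaussian reveal channel with output `ℝᵐ` -/
theorem lowRL (hLC : LCd ρ0) [IsProbabilityMeasure (mu ρ0)] (h : CSupp (mu ρ0) R) (hs : 0 < s)
    (hsr : s ≤ r) (hN : Pos N) (h1 : EY (mu ρ0) s N = 1) (hφ : ∀ a, SB (φ a)) {c : ℝ}
    (hc : 0 ≤ c) {κ D : ℝ} (hκ : 0 ≤ κ) (hD : DBL (mu ρ0) r κ D) :
    c / 2 * (IP (mu ρ0) s N φ φ - Co (gsn m) (mu ρ0) s N φ (RL c φ))
        - (r - s) / 2 * (FI (mu ρ0) s N + c * DE (mu ρ0) s N φ)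
        - (κ * FI (mu ρ0) s N + D - HE (mu ρ0) s N)
      ≤ κ * ∫ w, EY (mu ρ0) r (fun y => UL (mu ρ0) s r (fun y' => N y' * RL c φ w y') y *
        ∑ i, (sN (UL (mu ρ0) s r (fun y' => N y' * RL c φ w y')) i y
          - sN (UL (mu ρ0) s r N) i y) ^ 2) ∂(gsn m) := by
  have hg := out_gw m
  have hl : SC (gsn m) (gw m) (RL c φ) := SC.of_sch (sch_RL hφ hc)
  have a1 := lowU hg hLC h hs hsr hN h1 hl hκ hD
  rw [JF_tl hg h hs hsr hN hl, JF_eq, JF_RL hN hφ hc] at a1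
  have a2 := Inf_RL_ge (μ := mu ρ0) (r := s) hN h1 hφ hc
  linarith only [a1, a2]

/-- any finite index set (e.g. matrix fields) -/
theorem lowRL_ix {ι : Type} [Fintype ι] (e : Fin m ≃ ι) {ψ : ι → (Fin n → ℝ) → ℝ}
    (hLC : LCd ρ0) [IsProbabilityMeasure (mu ρ0)] (h : CSupp (mu ρ0) R) (hs : 0 < s)
    (hsr : s ≤ r) (hN : Pos N) (h1 : EY (mu ρ0) s N = 1) (hψ : ∀ a, SB (ψ a)) {c : ℝ}
    (hc : 0 ≤ c) {κ D : ℝ} (hκ : 0 ≤ κ) (hD : DBL (mu ρ0) r κ D) :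
    c / 2 * (IP (mu ρ0) s N ψ ψ - Co (gsn m) (mu ρ0) s N ψ (RL c fun a => ψ (e a)))
        - (r - s) / 2 * (FI (mu ρ0) s N + c * DE (mu ρ0) s N ψ)
        - (κ * FI (mu ρ0) s N + D - HE (mu ρ0) s N)
      ≤ κ * ∫ w, EY (mu ρ0) r (fun y =>
        UL (mu ρ0) s r (fun y' => N y' * RL c (fun a => ψ (e a)) w y') y *
        ∑ i, (sN (UL (mu ρ0) s r (fun y' => N y' * RL c (fun a => ψ (e a)) w y')) i y
          - sN (UL (mu ρ0) s r N) i y) ^ 2) ∂(gsn m) := by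
  have a1 := lowRL (φ := fun a => ψ (e a)) hLC h hs hsr hN h1 (fun a => hψ _) hc hκ hD
  have e1 : IP (mu ρ0) s N (fun a => ψ (e a)) (fun a => ψ (e a)) = IP (mu ρ0) s N ψ ψ :=
    IP_reindex e ψ ψ
  have e2 : DE (mu ρ0) s N (fun a => ψ (e a)) = DE (mu ρ0) s N ψ := DE_reindex e ψ
  have e3 : Co (gsn m) (mu ρ0) s N (fun a => ψ (e a)) (RL c fun a => ψ (e a))
      = Co (gsn m) (mu ρ0) s N ψ (RL c fun a => ψ (e a)) := Co_reindex e ψ
  rw [e1, e2, e3] at a1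
  exact a1

end low

end Vale.Agent.P245.H468.AV
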