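import Vale.Agent.P245.H468.ChG

/-! # P245 (helper916): calculus of families of functions indexed by the channel output

`MB g F` : `F : W → (Fin n → ℝ) → ℝ` is jointly measurable and `|F w y| ≤ exp (K g w)`.
Closed under algebra, heat semigroup, the kernel `UL`; Fubini with `EY`. -/

set_option linter.all false

open MeasureTheory Real Set Filter Topology
open scoped ENNReal ContDiff

namespace Vale.Agent.P245.H468.AV

open LS E1 H468

variable {n : ℕ} {W : Type*} [MeasurableSpace W] {γ : Measure W} {g : W → ℝ}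

/-- jointly measurable families with growth `exp (K g w)` -/
structure MB (g : W → ℝ) (F : W → (Fin n → ℝ) → ℝ) : Prop where
  meas : Measurable (Function.uncurry F)
  bd : ∃ K, 0 ≤ K ∧ ∀ w y, |F w y| ≤ exp (K * g w)

theorem MB.left {F : W → (Fin n → ℝ) → ℝ} (hF : MB g F) (w : W) : BM (F w) := by
  obtain ⟨K, _, hK⟩ := hF.bd
  exact ⟨hF.meas.comp (measurable_const.prodMk measurable_id), _, hK w⟩

theorem MB.of_ch {l : W → (Fin n → ℝ) → ℝ} (hl : Ch γ g l) : MB g l := by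
  obtain ⟨K, hK0, hK⟩ := hl.bd
  exact ⟨hl.meas, K, hK0, fun w y => by rw [abs_of_pos (hl.pos w y)]; exact (hK w y).2⟩

theorem MB.inv_ch {l : W → (Fin n → ℝ) → ℝ} (hl : Ch γ g l) : MB g fun w y => (l w y)⁻¹ := by
  obtain ⟨K, hK0, hK⟩ := hl.bd
  refine ⟨hl.meas.inv, K, hK0, fun w y => ?_⟩
  have hp := hl.pos w y
  rw [abs_of_pos (inv_pos.2 hp)]
  have h1 := (hK w y).1
  rw [exp_neg] at h1
  exact inv_le_of_inv_le₀ (exp_pos _) h1

theorem le_exp_of (hg1 : ∀ w, 1 ≤ g w) {C : ℝ} (hC : 0 ≤ C) (w : W) : C ≤ exp (C * g w) := by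
  have h1 : C ≤ C * g w := le_mul_of_one_le_right hC (hg1 w)
  have h2 := add_one_le_exp (C * g w)
  linarith

theorem MB.of_bm (hg : Out γ g) {φ : (Fin n → ℝ) → ℝ} (hφ : BM φ) : MB g fun _ y => φ y := by
  obtain ⟨C, hC0, hC⟩ := hφ.bdd'
  exact ⟨hφ.1.comp measurable_snd, C, hC0, fun w y => (hC y).trans (le_exp_of hg.one_le hC0 w)⟩

/-- functions of the output only -/
theorem MB.of_w {u : W → ℝ} (hu : Measurable u) {K : ℝ} (hK0 : 0 ≤ K)
    (hK : ∀ w, |u w| ≤ exp (K * g w)) : MB g fun (w : W) (_ : Fin n → ℝ) => u w :=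
  ⟨hu.comp measurable_fst, K, hK0, fun w _ => hK w⟩

theorem MB.const (hg : Out γ g) (c : ℝ) : MB g fun (_ : W) (_ : Fin n → ℝ) => c :=
  MB.of_bm hg (BM.const c)

theorem MB.mul {F G : W → (Fin n → ℝ) → ℝ} (hF : MB g F) (hG : MB g G) :
    MB g fun w y => F w y * G w y := by
  obtain ⟨K, hK0, hK⟩ := hF.bd
  obtain ⟨L, hL0, hL⟩ := hG.bd
  refine ⟨hF.meas.mul hG.meas, K + L, add_nonneg hK0 hL0, fun w y => ?_⟩
  rw [add_mul, exp_add]
  exact abs_mul_le_of (hK w y) (hL w y)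

theorem MB.add (hg : Out γ g) {F G : W → (Fin n → ℝ) → ℝ} (hF : MB g F) (hG : MB g G) :
    MB g fun w y => F w y + G w y := by
  obtain ⟨K, hK0, hK⟩ := hF.bd
  obtain ⟨L, hL0, hL⟩ := hG.bd
  refine ⟨hF.meas.add hG.meas, K + L + 1, by linarith, fun w y => ?_⟩
  have hg1 := hg.one_le w
  have h1 : exp (K * g w) ≤ exp ((K + L) * g w) :=
    exp_le_exp.2 (mul_le_mul_of_nonneg_right (by linarith) (by linarith))
  have h2 : exp (L * g w) ≤ exp ((K + L) * g w) :=
    exp_le_exp.2 (mul_le_mul_of_nonneg_right (by linarith) (by linarith))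
  have h3 : exp ((K + L + 1) * g w) = exp ((K + L) * g w) * exp (g w) := by
    rw [← exp_add]; congr 1; ring
  have h4 : (2 : ℝ) ≤ exp (g w) := by
    have := add_one_le_exp (g w)
    linarith
  have h5 : exp ((K + L) * g w) * 2 ≤ exp ((K + L) * g w) * exp (g w) :=
    mul_le_mul_of_nonneg_left h4 (exp_pos _).le
  rw [h3]
  have h6 := abs_add_le (F w y) (G w y)
  have h7 := hK w y
  have h8 := hL w y
  linarith

theorem MB.const_mul (hg : Out γ g) (c : ℝ) {F : W → (Fin n → ℝ) → ℝ} (hF : MB g F) :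
    MB g fun w y => c * F w y := (MB.const hg c).mul hF

theorem MB.neg {F : W → (Fin n → ℝ) → ℝ} (hF : MB g F) : MB g fun w y => - F w y := by
  obtain ⟨K, hK0, hK⟩ := hF.bd
  exact ⟨hF.meas.neg, K, hK0, fun w y => by rw [abs_neg]; exact hK w y⟩

theorem MB.sub (hg : Out γ g) {F G : W → (Fin n → ℝ) → ℝ} (hF : MB g F) (hG : MB g G) :
    MB g fun w y => F w y - G w y := by
  simpa only [sub_eq_add_neg] using hF.add hg hG.neg

theorem MB.sum (hg : Out γ g) {ι : Type*} (s : Finset ι) {F : ι → W → (Fin n → ℝ) → ℝ}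
    (hF : ∀ i ∈ s, MB g (F i)) : MB g fun w y => ∑ i ∈ s, F i w y := by
  classical
  induction s using Finset.induction_on with
  | empty => simpa using MB.const (n := n) hg 0
  | insert i s hi ih =>
    simp only [Finset.sum_insert hi]
    exact (hF i (Finset.mem_insert_self _ _)).add hg
      (ih fun j hj => hF j (Finset.mem_insert_of_mem hj))

theorem MB.sq {F : W → (Fin n → ℝ) → ℝ} (hF : MB g F) : MB g fun w y => F w y ^ 2 := by
  simpa only [pow_two] using hF.mul hF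

/-- growth at most linear in `g`, e.g. `log l` -/
theorem MB.of_lin {F : W → (Fin n → ℝ) → ℝ} (hm : Measurable (Function.uncurry F)) {K : ℝ}
    (hK0 : 0 ≤ K) (hK : ∀ w y, |F w y| ≤ K * g w) : MB g F :=
  ⟨hm, K, hK0, fun w y => (hK w y).trans
    ((le_add_of_nonneg_right zero_le_one).trans (add_one_le_exp _))⟩

theorem MB.log_ch (hg : Out γ g) {l : W → (Fin n → ℝ) → ℝ} (hl : Ch γ g l) :
    MB g fun w y => log (l w y) := by
  obtain ⟨K, hK0, hK⟩ := hl.log_left hg
  exact MB.of_lin hl.meas.log hK0 hK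

/-! ### operators -/

theorem MB.ph {F : W → (Fin n → ℝ) → ℝ} (hF : MB g F) (u : ℝ) : MB g fun w y => PH u (F w) y := by
  obtain ⟨K, hK0, hK⟩ := hF.bd
  refine ⟨?_, K, hK0, fun w y => PH_abs_le (hK w) u y⟩
  have h : Measurable (fun p : (W × (Fin n → ℝ)) × (Fin n → ℝ) =>
      F p.1.1 (p.1.2 + √u • p.2)) :=
    hF.meas.comp (Measurable.prodMk (by fun_prop) (by (clear * -; fun_prop)) :
        Measurable fun p : (W × (Fin n → ℝ)) × (Fin n → ℝ) =>
          (p.1.1, p.1.2 + √u • p.2))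
  exact (h.stronglyMeasurable.integral_prod_right' (ν := gsn n)).measurable

section ey

variable {μ : Measure (Fin n → ℝ)} [IsProbabilityMeasure μ] {R : ℝ}

theorem UL_abs_le (h : CSupp μ R) {f : (Fin n → ℝ) → ℝ} (hf : Measurable f) {C : ℝ}
    (hC : ∀ y, |f y| ≤ C) (s r : ℝ) (y : Fin n → ℝ) : |UL μ s r f y| ≤ C := by
  have hb : BM f := ⟨hf, C, hC⟩
  exact Mf_abs_le h ((KB.ofUL hb s r).adm μ y)
    (Eventually.of_forall fun x => PH_abs_le hC _ _) _

theorem MB.ul (h : CSupp μ R) {F : W → (Fin n → ℝ) → ℝ} (hF : MB g F) (s r : ℝ) :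
    MB g fun w y => UL μ s r (F w) y := by
  obtain ⟨K, hK0, hK⟩ := hF.bd
  refine ⟨?_, K, hK0, fun w y => UL_abs_le h (hF.left w).1 (hK w) s r y⟩
  have h0 : Measurable (fun p : (W × (Fin n → ℝ)) × (Fin n → ℝ) =>
      (p.1.1, (1 - s / r) • p.2 + (s / r) • p.1.2)) :=
    Measurable.prodMk (by fun_prop) (by (clear * -; fun_prop))
  have h1 : Measurable (fun p : (W × (Fin n → ℝ)) × (Fin n → ℝ) =>
      PH (s * (r - s) / r) (F p.1.1) ((1 - s / r) • p.2 + (s / r) • p.1.2)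
        * exp (lx p.2 (1 / r, (1 / r) • p.1.2))) := by
    apply ((hF.ph (s * (r - s) / r)).meas.comp h0).mul
    apply Measurable.exp
    unfold lx
    simp only [Pi.smul_apply, smul_eq_mul]
    fun_prop
  have h2 : Measurable (fun y : Fin n → ℝ => Zo μ (1 / r, (1 / r) • y)) :=
    ((contDiff_Zo h 0).continuous.comp (by fun_prop)).measurable
  exact (h1.stronglyMeasurable.integral_prod_right' (ν := μ)).measurable.div
    (h2.comp measurable_snd)

theorem MB.ey_meas {F : W → (Fin n → ℝ) → ℝ} (hF : MB g F) (r : ℝ) :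
    Measurable fun w => EY μ r (F w) := by
  have e : (fun w => EY μ r (F w)) = fun w => ∫ y, F w y ∂(lw μ r) := by
    funext w
    exact EY_eq_lw_bm (hF.left w)
  rw [e]
  exact (hF.meas.stronglyMeasurable.integral_prod_right' (ν := lw μ r)).measurable

theorem MB.ey_le {F : W → (Fin n → ℝ) → ℝ} (hF : MB g F) (r : ℝ) :
    ∃ K, 0 ≤ K ∧ ∀ w, |EY μ r (F w)| ≤ exp (K * g w) := by
  obtain ⟨K, hK0, hK⟩ := hF.bd
  exact ⟨K, hK0, fun w => EY_abs_le (hK w)⟩

/-- the expectation as a family -/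
theorem MB.ey {F : W → (Fin n → ℝ) → ℝ} (hF : MB g F) (r : ℝ) :
    MB g fun (w : W) (_ : Fin n → ℝ) => EY μ r (F w) := by
  obtain ⟨K, hK0, hK⟩ := hF.ey_le (μ := μ) r
  exact MB.of_w (hF.ey_meas r) hK0 hK

theorem MB.int_prod (hg : Out γ g) {F : W → (Fin n → ℝ) → ℝ} (hF : MB g F)
    (P : Measure (Fin n → ℝ)) [IsProbabilityMeasure P] [IsProbabilityMeasure γ] :
    Integrable (Function.uncurry F) (γ.prod P) := by
  obtain ⟨K, _, hK⟩ := hF.bd
  have h2 : Integrable (fun q : W × (Fin n → ℝ) => exp (K * g q.1)) (γ.prod P) :=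
    (hg.int K).comp_fst P
  refine h2.mono' hF.meas.aestronglyMeasurable (Eventually.of_forall fun q => ?_)
  rw [norm_eq_abs]
  exact hK q.1 q.2

theorem MB.int_w [IsProbabilityMeasure γ] (hg : Out γ g) {F : W → (Fin n → ℝ) → ℝ} (hF : MB g F)
    (y : Fin n → ℝ) : Integrable (fun w => F w y) γ := by
  obtain ⟨K, _, hK⟩ := hF.bd
  refine (hg.int K).mono' (hF.meas.comp
    (measurable_id.prodMk measurable_const)).aestronglyMeasurable
    (Eventually.of_forall fun w => ?_)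
  rw [norm_eq_abs]
  exact hK w y

theorem MB.ey_int [IsProbabilityMeasure γ] (hg : Out γ g) {F : W → (Fin n → ℝ) → ℝ}
    (hF : MB g F) (r : ℝ) : Integrable (fun w => EY μ r (F w)) γ := by
  obtain ⟨K, _, hK⟩ := hF.ey_le (μ := μ) r
  refine (hg.int K).mono' (hF.ey_meas r).aestronglyMeasurable (Eventually.of_forall fun w => ?_)
  rw [norm_eq_abs]
  exact hK w

theorem MB.avg_bm [IsProbabilityMeasure γ] (hg : Out γ g) {F : W → (Fin n → ℝ) → ℝ}
    (hF : MB g F) : BM fun y => ∫ w, F w y ∂γ := by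
  obtain ⟨K, _, hK⟩ := hF.bd
  refine ⟨(hF.meas.stronglyMeasurable.integral_prod_left' (μ := γ)).measurable,
    ∫ w, exp (K * g w) ∂γ, fun y => ?_⟩
  rw [← norm_eq_abs]
  exact norm_integral_le_of_norm_le (hg.int K) (Eventually.of_forall fun w => by
    rw [norm_eq_abs]; exact hK w y)

/-- Fubini -/
theorem MB.fub [IsProbabilityMeasure γ] (hg : Out γ g) {F : W → (Fin n → ℝ) → ℝ} (hF : MB g F)
    (r : ℝ) : ∫ w, EY μ r (F w) ∂γ = EY μ r fun y => ∫ w, F w y ∂γ := by
  rw [EY_eq_lw_bm (hF.avg_bm hg)]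
  have e : (fun w => EY μ r (F w)) = fun w => ∫ y, F w y ∂(lw μ r) := by
    funext w
    exact EY_eq_lw_bm (hF.left w)
  rw [e]
  exact integral_integral_swap (hF.int_prod hg (lw μ r))

theorem EY_add_bm {Φ Ψ : (Fin n → ℝ) → ℝ} (hΦ : BM Φ) (hΨ : BM Ψ) (r : ℝ) :
    EY μ r (fun y => Φ y + Ψ y) = EY μ r Φ + EY μ r Ψ := by
  obtain ⟨C, hC⟩ := hΦ.2
  obtain ⟨D, hD⟩ := hΨ.2
  have hs : BM fun y => Φ y + Ψ y :=
    ⟨hΦ.1.add hΨ.1, C + D, fun y => (abs_add_le _ _).trans (add_le_add (hC y) (hD y))⟩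
  rw [EY_eq_lw_bm hs, EY_eq_lw_bm hΦ, EY_eq_lw_bm hΨ]
  exact integral_add (integrable_of_bdd _ hΦ.1 hC) (integrable_of_bdd _ hΨ.1 hD)

end ey

/-! ### derivatives -/

theorem pd_line {f : (Fin n → ℝ) → ℝ} (hf : Differentiable ℝ f) (i : Fin n) (y : Fin n → ℝ)
    (t : ℝ) : HasDerivAt (fun t : ℝ => f (y + t • (Pi.single i (1 : ℝ) : Fin n → ℝ)))
      (pd f i (y + t • (Pi.single i (1 : ℝ) : Fin n → ℝ))) t := by
  have h1 : HasDerivAt (fun t : ℝ => y + t • (Pi.single i (1 : ℝ) : Fin n → ℝ))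
      (Pi.single i (1 : ℝ) : Fin n → ℝ) t := by
    have h2 := ((hasDerivAt_id t).smul_const (Pi.single i (1 : ℝ) : Fin n → ℝ)).const_add y
    simpa only [one_smul, id] using h2
  exact (hf _).hasFDerivAt.comp_hasDerivAt t h1

/-- joint measurability of the partial derivatives of a measurable family of differentiable
functions -/
theorem pd_jm {F : W → (Fin n → ℝ) → ℝ} (hm : Measurable (Function.uncurry F))
    (hd : ∀ w, Differentiable ℝ (F w)) (i : Fin n) :
    Measurable (Function.uncurry fun w y => pd (F w) i y) := by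
  have hlim : ∀ p : W × (Fin n → ℝ), Tendsto (fun k : ℕ => ((k : ℝ) + 1) *
      (F p.1 (p.2 + ((k : ℝ) + 1)⁻¹ • (Pi.single i (1 : ℝ) : Fin n → ℝ)) - F p.1 p.2)) atTop
      (𝓝 (pd (F p.1) i p.2)) := by
    intro p
    have h := pd_line (hd p.1) i p.2 0
    rw [zero_smul, add_zero] at h
    have h2 := h.tendsto_slope_zero
    have h3 : Tendsto (fun k : ℕ => ((k : ℝ) + 1)⁻¹) atTop (𝓝[≠] 0) := by
      rw [tendsto_nhdsWithin_iff]
      refine ⟨?_, Eventually.of_forall fun k => ?_⟩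
      · have := tendsto_one_div_add_atTop_nhds_zero_nat (𝕜 := ℝ)
        simpa only [one_div] using this
      · have : (0 : ℝ) < ((k : ℝ) + 1)⁻¹ := by positivity
        exact this.ne'
    have h4 := h2.comp h3
    refine h4.congr fun k => ?_
    simp only [Function.comp_apply, zero_add, zero_smul, add_zero, inv_inv, smul_eq_mul]
  refine measurable_of_tendsto_metrizable (f := fun (k : ℕ) (p : W × (Fin n → ℝ)) =>
    ((k : ℝ) + 1) * (F p.1 (p.2 + ((k : ℝ) + 1)⁻¹ • (Pi.single i (1 : ℝ) : Fin n → ℝ))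
      - F p.1 p.2)) (fun k => ?_) (tendsto_pi_nhds.2 fun p => hlim p)
  refine measurable_const.mul (Measurable.sub ?_ hm)
  exact hm.comp (measurable_fst.prodMk (measurable_snd.add measurable_const))

end Vale.Agent.P245.H468.AV
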