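import Vale.Agent.P245.H916.MB
import Vale.Agent.P245.H468.ChT

/-! # P245 (helper916): smooth channels

`SC γ g l` : a channel with `l w ∈ SB` and `|∂_i l w| ≤ exp (K g w)`.  Averaged identities for the
entropy and the Fisher information of the posteriors, and transport by `UL`. -/

set_option linter.all false

open MeasureTheory Real Set Filter Topology
open scoped ENNReal ContDiff

namespace Vale.Agent.P245.H468.AV

open LS E1 H468

variable {n : ℕ} {W : Type*} [MeasurableSpace W] {γ : Measure W} {g : W → ℝ}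

/-- smooth channels -/
structure SC (γ : Measure W) (g : W → ℝ) (l : W → (Fin n → ℝ) → ℝ) : Prop where
  ch : Ch γ g l
  sb : ∀ w, SB (l w)
  dm : ∀ i, MB g fun w y => pd (l w) i y

theorem SC.mk' {l : W → (Fin n → ℝ) → ℝ} (hl : Ch γ g l) (hs : ∀ w, SB (l w))
    (hd : ∀ i, ∃ K, 0 ≤ K ∧ ∀ w y, |pd (l w) i y| ≤ exp (K * g w)) : SC γ g l :=
  ⟨hl, hs, fun i => ⟨pd_jm hl.meas (fun w => (hs w).differentiable) i, hd i⟩⟩

theorem SC.mb {l : W → (Fin n → ℝ) → ℝ} (hl : SC γ g l) : MB g l := MB.of_ch hl.ch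

theorem SC.pos {l : W → (Fin n → ℝ) → ℝ} (hl : SC γ g l) (w : W) : Pos (l w) := by
  obtain ⟨K, _, hK⟩ := hl.ch.bd
  exact ⟨hl.sb w, exp (-(K * g w)), exp_pos _, fun y => (hK w y).1⟩

theorem SC.pos_mul {l : W → (Fin n → ℝ) → ℝ} (hl : SC γ g l) {N : (Fin n → ℝ) → ℝ} (hN : Pos N)
    (w : W) : Pos fun y => N y * l w y := hN.mul (hl.pos w)

/-- `∫ ∂_i l w dγ = 0` -/
theorem SC.avg_pd [IsProbabilityMeasure γ] (hg : Out γ g) {l : W → (Fin n → ℝ) → ℝ}
    (hl : SC γ g l) (i : Fin n) (y : Fin n → ℝ) : ∫ w, pd (l w) i y ∂γ = 0 := by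
  obtain ⟨K, hK0, hK⟩ := (hl.dm i).bd
  set e : Fin n → ℝ := Pi.single i 1 with he
  have h := hasDerivAt_integral_of_dominated_loc_of_deriv_le (μ := γ)
    (F := fun (t : ℝ) w => l w (y + t • e)) (F' := fun (t : ℝ) w => pd (l w) i (y + t • e))
    (x₀ := 0) (s := univ) (bound := fun w => exp (K * g w)) univ_mem
    (Eventually.of_forall fun t => (hl.ch.meas.comp
      (measurable_id.prodMk measurable_const)).aestronglyMeasurable)
    (hl.mb.int_w hg _)
    ((hl.dm i).meas.comp (measurable_id.prodMk measurable_const)).aestronglyMeasurable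
    (Eventually.of_forall fun w t _ => by rw [norm_eq_abs]; exact hK w _)
    (hg.int K)
    (Eventually.of_forall fun w t _ => pd_line (hl.sb w).differentiable i y t)
  have h2 := h.2
  have h3 : (fun t : ℝ => ∫ w, l w (y + t • e) ∂γ) = fun _ => 1 := by
    funext t
    exact hl.ch.one _
  rw [h3] at h2
  have h4 := h2.unique (hasDerivAt_const (0 : ℝ) (1 : ℝ))
  simpa only [zero_smul, add_zero] using h4

/-! ### Fisher information of a channel -/

/-- `E |D_y log l(W,Y)|²` -/
noncomputable def JF (γ : Measure W) (μ : Measure (Fin n → ℝ)) (r : ℝ) (N : (Fin n → ℝ) → ℝ)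
    (l : W → (Fin n → ℝ) → ℝ) : ℝ :=
  ∫ w, EY μ r (fun y => N y * ∑ i, pd (l w) i y ^ 2 * (l w y)⁻¹) ∂γ

section avg

variable {μ : Measure (Fin n → ℝ)} [IsProbabilityMeasure μ] {r : ℝ} {N : (Fin n → ℝ) → ℝ}
  {l : W → (Fin n → ℝ) → ℝ}

theorem JF_nonneg (hN : Pos N) (hl : SC γ g l) : 0 ≤ JF γ μ r N l :=
  integral_nonneg fun w => EY_nonneg μ r fun y => mul_nonneg (hN.pos y).le
    (Finset.sum_nonneg fun i _ => mul_nonneg (sq_nonneg _) (inv_pos.2 (hl.ch.pos w y)).le)

/-- normalised posterior density -/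
noncomputable def po (μ : Measure (Fin n → ℝ)) (r : ℝ) (N : (Fin n → ℝ) → ℝ)
    (l : W → (Fin n → ℝ) → ℝ) (w : W) (y : Fin n → ℝ) : ℝ := (ms μ r N l w)⁻¹ * (N y * l w y)

theorem po_pos (hN : Pos N) (hl : SC γ g l) (w : W) : Pos (po μ r N l w) :=
  Pos.const_mul (inv_pos.2 (ms_pos hN hl.ch w)) (hl.pos_mul hN w)

theorem po_one (hN : Pos N) (hl : SC γ g l) (w : W) : EY μ r (po μ r N l w) = 1 := by
  unfold po
  rw [EY_const_mul]
  exact inv_mul_cancel₀ (ms_pos hN hl.ch w).ne'

/-- entropy of the posterior -/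
theorem he_po (hg : Out γ g) (hN : Pos N) (hl : SC γ g l) (w : W) :
    ms μ r N l w * HE μ r (po μ r N l w)
      = EY μ r (fun y => N y * log (N y) * l w y)
        + ((EY μ r fun y => N y * (l w y * log (l w y))) - ms μ r N l w * log (ms μ r N l w)) := by
  have hm := ms_pos (μ := μ) (r := r) hN hl.ch w
  set m := ms μ r N l w with hmd
  have hb1 : BM fun y => N y * log (N y) * l w y :=
    ((SB.bm hN.sb).mul (SB.bm hN.log)).mul (hl.ch.bm w)
  have hb2 : BM fun y => N y * (l w y * log (l w y)) := (SB.bm hN.sb).mul (hl.ch.bm_log w)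
  have hb3 : BM fun y => -log m * (N y * l w y) :=
    (BM.const _).mul ((SB.bm hN.sb).mul (hl.ch.bm w))
  have hb12 : BM fun y => N y * log (N y) * l w y + N y * (l w y * log (l w y)) := by
    obtain ⟨C, hC⟩ := hb1.2
    obtain ⟨D, hD⟩ := hb2.2
    exact ⟨hb1.1.add hb2.1, C + D, fun y => (abs_add_le _ _).trans (add_le_add (hC y) (hD y))⟩
  unfold HE
  rw [← EY_const_mul]
  have e : (fun y => m * (po μ r N l w y * log (po μ r N l w y)))
      = fun y => (N y * log (N y) * l w y + N y * (l w y * log (l w y)))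
        + -log m * (N y * l w y) := by
    funext y
    have h1 := hN.pos y
    have h2 := hl.ch.pos w y
    unfold po
    rw [← hmd, log_mul (inv_pos.2 hm).ne' (mul_pos h1 h2).ne', log_inv, log_mul h1.ne' h2.ne']
    field_simp
    ring
  rw [e, EY_add_bm hb12 hb3, EY_add_bm hb1 hb2, EY_const_mul]
  have e3 : EY μ r (fun y => N y * l w y) = m := rfl
  rw [e3]
  ring

/-- Fisher information of the posterior -/
theorem fi_po (hg : Out γ g) (hN : Pos N) (hl : SC γ g l) (w : W) :
    ms μ r N l w * FI μ r (po μ r N l w)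
      = EY μ r (fun y => (∑ i, pd N i y ^ 2) / N y * l w y + ∑ i, 2 * pd N i y * pd (l w) i y
        + N y * ∑ i, pd (l w) i y ^ 2 * (l w y)⁻¹) := by
  have hm := ms_pos (μ := μ) (r := r) hN hl.ch w
  set m := ms μ r N l w with hmd
  unfold FI
  rw [← EY_const_mul]
  congr 1
  funext y
  have h1 := hN.pos y
  have h2 := hl.ch.pos w y
  have hpd : ∀ i, pd (po μ r N l w) i y = m⁻¹ * (pd N i y * l w y + N y * pd (l w) i y) := by
    intro i
    have e1 : po μ r N l w = fun y => m⁻¹ * (N y * l w y) := rfl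
    rw [e1, LS.pd_mul (differentiable_const _) (hN.sb.mul (hl.sb w)).differentiable,
      LS.pd_mul hN.sb.differentiable (hl.sb w).differentiable]
    have e2 : pd (fun _ : Fin n → ℝ => m⁻¹) i y = 0 := by
      unfold pd; rw [fderiv_const_apply]; rfl
    beta_reduce
    rw [e2]
    ring
  simp only [hpd]
  have e4 : po μ r N l w y = m⁻¹ * (N y * l w y) := rfl
  rw [e4, Finset.mul_sum, Finset.sum_div, Finset.sum_div, Finset.sum_mul, Finset.mul_sum,
    ← Finset.sum_add_distrib, ← Finset.sum_add_distrib]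
  refine Finset.sum_congr rfl fun i _ => ?_
  field_simp
  ring

variable [IsProbabilityMeasure γ]

/-- averaged entropy of the posteriors -/
theorem avg_he (hg : Out γ g) (hN : Pos N) (hl : SC γ g l) :
    Integrable (fun w => ms μ r N l w * HE μ r (po μ r N l w)) γ ∧
    ∫ w, ms μ r N l w * HE μ r (po μ r N l w) ∂γ = HE μ r N + Inf γ μ r N l := by
  have hb : BM fun y => N y * log (N y) := (SB.bm hN.sb).mul (SB.bm hN.log)
  have h1 : MB g fun w y => N y * log (N y) * l w y := (MB.of_bm hg hb).mul hl.mb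
  have i1 := h1.ey_int (μ := μ) hg r
  have i2 := Inf_integrable (μ := μ) (r := r) hg hN hl.ch
  have e : (fun w => ms μ r N l w * HE μ r (po μ r N l w)) = fun w =>
      EY μ r (fun y => N y * log (N y) * l w y)
        + ((EY μ r fun y => N y * (l w y * log (l w y)))
          - ms μ r N l w * log (ms μ r N l w)) := by
    funext w
    exact he_po hg hN hl w
  rw [e]
  refine ⟨i1.add i2, ?_⟩
  rw [integral_add i1 i2, h1.fub hg r]
  congr 1
  unfold HE
  congr 1
  funext y
  rw [integral_const_mul, hl.ch.one, mul_one]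

/-- averaged Fisher information of the posteriors -/
theorem avg_fi (hg : Out γ g) (hN : Pos N) (hl : SC γ g l) :
    Integrable (fun w => ms μ r N l w * FI μ r (po μ r N l w)) γ ∧
    ∫ w, ms μ r N l w * FI μ r (po μ r N l w) ∂γ = FI μ r N + JF γ μ r N l := by
  have hb : BM fun y => (∑ i, pd N i y ^ 2) / N y :=
    SB.bm (hN.div (SB.sum _ fun i _ => (hN.sb.pd i).pow 2))
  have h1 : MB g fun w y => (∑ i, pd N i y ^ 2) / N y * l w y := (MB.of_bm hg hb).mul hl.mb
  have h2 : MB g fun w y => ∑ i, 2 * pd N i y * pd (l w) i y :=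
    MB.sum hg _ fun i _ => ((MB.of_bm hg ((BM.const 2).mul (SB.bm (hN.sb.pd i)))).mul (hl.dm i))
  have h3 : MB g fun w y => N y * ∑ i, pd (l w) i y ^ 2 * (l w y)⁻¹ :=
    (MB.of_bm hg (SB.bm hN.sb)).mul (MB.sum hg _ fun i _ => (hl.dm i).sq.mul (MB.inv_ch hl.ch))
  have e : (fun w => ms μ r N l w * FI μ r (po μ r N l w)) = fun w =>
      EY μ r (fun y => (∑ i, pd N i y ^ 2) / N y * l w y) +
        EY μ r (fun y => ∑ i, 2 * pd N i y * pd (l w) i y)
        + EY μ r (fun y => N y * ∑ i, pd (l w) i y ^ 2 * (l w y)⁻¹) := by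
    funext w
    rw [fi_po hg hN hl w, ← EY_add_bm (h1.left w) (h2.left w),
      ← EY_add_bm ((h1.add hg h2).left w) (h3.left w)]
  have i1 := h1.ey_int (μ := μ) hg r
  have i2 := h2.ey_int (μ := μ) hg r
  have i3 := h3.ey_int (μ := μ) hg r
  rw [e]
  refine ⟨(i1.add i2).add i3, ?_⟩
  have e2 : ∫ w, EY μ r (fun y => ∑ i, 2 * pd N i y * pd (l w) i y) ∂γ = 0 := by
    rw [h2.fub hg r]
    have e3 : (fun y => ∫ w, (∑ i, 2 * pd N i y * pd (l w) i y) ∂γ) = fun _ : Fin n → ℝ => 0 := by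
      funext y
      rw [integral_finsetSum]
      · refine Finset.sum_eq_zero fun i _ => ?_
        rw [integral_const_mul, hl.avg_pd hg i y, mul_zero]
      · intro i _
        exact ((hl.dm i).int_w hg y).const_mul _
    rw [e3, EY_eq_lw_bm (BM.const 0)]
    simp
  have e4 : ∫ w, EY μ r (fun y => (∑ i, pd N i y ^ 2) / N y * l w y) ∂γ = FI μ r N := by
    rw [h1.fub hg r]
    unfold FI
    congr 1
    funext y
    rw [integral_const_mul, hl.ch.one, mul_one]
  have e5 : ∫ w, (EY μ r (fun y => (∑ i, pd N i y ^ 2) / N y * l w y) +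
        EY μ r (fun y => ∑ i, 2 * pd N i y * pd (l w) i y)
        + EY μ r (fun y => N y * ∑ i, pd (l w) i y ^ 2 * (l w y)⁻¹)) ∂γ
      = ∫ w, (EY μ r (fun y => (∑ i, pd N i y ^ 2) / N y * l w y) +
        EY μ r (fun y => ∑ i, 2 * pd N i y * pd (l w) i y)) ∂γ
        + ∫ w, EY μ r (fun y => N y * ∑ i, pd (l w) i y ^ 2 * (l w y)⁻¹) ∂γ :=
    integral_add (i1.add i2) i3
  rw [e5, integral_add i1 i2, e2, e4, add_zero]
  rfl

/-- masses average to one -/
theorem avg_ms (hg : Out γ g) (hN : Pos N) (hl : SC γ g l) :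
    Integrable (fun w => ms μ r N l w) γ ∧ ∫ w, ms μ r N l w ∂γ = EY μ r N := by
  have h1 : MB g fun w y => N y * l w y := (MB.of_bm hg (SB.bm hN.sb)).mul hl.mb
  refine ⟨h1.ey_int (μ := μ) hg r, ?_⟩
  have h2 := h1.fub (μ := μ) hg r
  have e : (fun y => ∫ w, N y * l w y ∂γ) = N := by
    funext y
    rw [integral_const_mul, hl.ch.one, mul_one]
  rw [e] at h2
  exact h2

/-- channel form of the defective log-Sobolev inequality -/
theorem chan_lsi (hg : Out γ g) (hN : Pos N) (h1 : EY μ r N = 1) (hl : SC γ g l) {κ D : ℝ}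
    (hD : DBL μ r κ D) :
    HE μ r N + Inf γ μ r N l ≤ κ * (FI μ r N + JF γ μ r N l) + D := by
  obtain ⟨i1, e1⟩ := avg_he (μ := μ) (r := r) hg hN hl
  obtain ⟨i2, e2⟩ := avg_fi (μ := μ) (r := r) hg hN hl
  obtain ⟨i3, e3⟩ := avg_ms (μ := μ) (r := r) hg hN hl
  rw [h1] at e3
  have h := integral_mono i1 ((i2.const_mul κ).add (i3.mul_const D)) (fun w => by
    have h2 := hD _ (po_pos hN hl w) (po_one hN hl w)
    have h3 := mul_le_mul_of_nonneg_left h2 (ms_pos (μ := μ) (r := r) hN hl.ch w).le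
    show ms μ r N l w * HE μ r (po μ r N l w)
      ≤ κ * (ms μ r N l w * FI μ r (po μ r N l w)) + ms μ r N l w * D
    linarith only [h3])
  have e4 : ∫ w, (κ * (ms μ r N l w * FI μ r (po μ r N l w)) + ms μ r N l w * D) ∂γ
      = κ * (FI μ r N + JF γ μ r N l) + D := by
    rw [integral_add (i2.const_mul κ) (i3.mul_const D), integral_const_mul, integral_mul_const,
      e2, e3, one_mul]
  rw [e1] at h
  exact h.trans (le_of_eq e4)

end avg

end Vale.Agent.P245.H468.AV
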