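import Vale.Agent.P245.H916.SC

/-! # P245 (helper916): transport of smooth channels by `UL` and the lower half of Lemma U -/

set_option linter.all false

open MeasureTheory Real Set Filter Topology
open scoped ENNReal ContDiff

namespace Vale.Agent.P245.H468.AV

open LS E1 H468

variable {n : ℕ} {W : Type*} [MeasurableSpace W] {γ : Measure W} {g : W → ℝ}

section tr

variable {μ : Measure (Fin n → ℝ)} [IsProbabilityMeasure μ] {R : ℝ} {s r : ℝ}
  {N : (Fin n → ℝ) → ℝ} {l : W → (Fin n → ℝ) → ℝ}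

/-- the derivative of `UL M` -/
theorem pd_UL (h : CSupp μ R) {M : (Fin n → ℝ) → ℝ} (hM : Pos M) (hs : 0 < s) (hsr : s ≤ r)
    (i : Fin n) (y : Fin n → ℝ) :
    pd (UL μ s r M) i y = r⁻¹ * (UL μ s r (fun y' => M y' * XB μ s i y') y
      - XB μ r i y * UL μ s r M y + s * UL μ s r (pd M i) y) := by
  obtain ⟨hU, -, h3⟩ := ((thR' n μ R h).2.2 s r hs hsr).2 M hM
  have h4 := h3 i y
  have hp := hU.pos y
  have hr : 0 < r := hs.trans_le hsr
  unfold mm dx us sN at h4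
  have h5 : r * (pd (UL μ s r M) i y / UL μ s r M y)
      = UL μ s r (fun y' => M y' * XB μ s i y') y / UL μ s r M y - XB μ r i y
        + s * (UL μ s r (pd M i) y / UL μ s r M y) := by linarith only [h4]
  field_simp at h5 ⊢
  linarith only [h5]

theorem UL_cm (h : CSupp μ R) (hs : 0 < s) (hsr : s ≤ r) (c : ℝ) {f : (Fin n → ℝ) → ℝ}
    (hf : BM f) (y : Fin n → ℝ) : UL μ s r (fun y => c * f y) y = c * UL μ s r f y := by
  rw [((thK n μ R h).1 s r hs hsr).2.2.1 c f hf]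

theorem UL_pos (h : CSupp μ R) (hs : 0 < s) (hsr : s ≤ r) {M : (Fin n → ℝ) → ℝ} (hM : Pos M) :
    Pos (UL μ s r M) := (((thR' n μ R h).2.2 s r hs hsr).2 M hM).1

/-- the transported channel -/
noncomputable def tl (μ : Measure (Fin n → ℝ)) (s r : ℝ) (N : (Fin n → ℝ) → ℝ)
    (l : W → (Fin n → ℝ) → ℝ) : W → (Fin n → ℝ) → ℝ := tch (UL μ s r) N l

variable [IsProbabilityMeasure γ]

theorem tl_mul (hg : Out γ g) (h : CSupp μ R) (hs : 0 < s) (hsr : s ≤ r) (hN : Pos N)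
    (l : W → (Fin n → ℝ) → ℝ) (w : W) (y : Fin n → ℝ) :
    UL μ s r N y * tl μ s r N l w y = UL μ s r (fun y' => N y' * l w y') y :=
  tch_mul (MO_UL hg h hs hsr) (SB.bm hN.sb) hN.lb w y

theorem SC.tl (hg : Out γ g) (h : CSupp μ R) (hs : 0 < s) (hsr : s ≤ r) (hN : Pos N)
    (hl : SC γ g l) : SC γ g (tl μ s r N l) := by
  have hU := UL_pos (μ := μ) h hs hsr hN
  have hUi : Pos fun y => (UL μ s r N y)⁻¹ := hU.inv
  have hX : ∀ i, SB (XB μ s i) := fun i => (thR' n μ R h).1 s i hs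
  have hXr : ∀ i, SB (XB μ r i) := fun i => (thR' n μ R h).1 r i (hs.trans_le hsr)
  have eq1 : ∀ w, AV.tl μ s r N l w
      = fun y => UL μ s r (fun y' => N y' * l w y') y * (UL μ s r N y)⁻¹ := by
    intro w
    funext y
    unfold AV.tl H468.tch
    rw [div_eq_mul_inv]
  have hP : ∀ w, Pos (UL μ s r (fun y' => N y' * l w y')) := fun w =>
    UL_pos h hs hsr (hl.pos_mul hN w)
  have f1 : MB g fun w y => N y * l w y := (MB.of_bm hg (SB.bm hN.sb)).mul hl.mb
  have f2 : MB g fun w y => UL μ s r (fun y' => N y' * l w y') y := f1.ul h s r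
  have f3 : ∀ i, MB g fun w y => UL μ s r (fun y' => N y' * l w y' * XB μ s i y') y := fun i =>
    (f1.mul (MB.of_bm hg (SB.bm (hX i)))).ul h s r
  have f4 : ∀ i, MB g fun w y => pd (fun y => N y * l w y) i y := fun i => by
    have e : (fun (w : W) (y : Fin n → ℝ) => pd (fun y => N y * l w y) i y)
        = fun w y => N y * pd (l w) i y + pd N i y * l w y := by
      funext w y
      rw [LS.pd_mul hN.sb.differentiable (hl.sb w).differentiable]
    rw [e]
    exact ((MB.of_bm hg (SB.bm hN.sb)).mul (hl.dm i)).add hg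
      ((MB.of_bm hg (SB.bm (hN.sb.pd i))).mul hl.mb)
  have f5 : ∀ i, MB g fun w y => UL μ s r (pd (fun y => N y * l w y) i) y := fun i =>
    (f4 i).ul h s r
  have f6 : ∀ i, MB g fun w y => pd (UL μ s r (fun y' => N y' * l w y')) i y := fun i => by
    have e : (fun (w : W) (y : Fin n → ℝ) => pd (UL μ s r (fun y' => N y' * l w y')) i y)
        = fun w y => r⁻¹ * (UL μ s r (fun y' => N y' * l w y' * XB μ s i y') y
          - XB μ r i y * UL μ s r (fun y' => N y' * l w y') y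
          + s * UL μ s r (pd (fun y => N y * l w y) i) y) := by
      funext w y
      exact pd_UL h (hl.pos_mul hN w) hs hsr i y
    rw [e]
    exact MB.const_mul hg _ (((f3 i).sub hg ((MB.of_bm hg (SB.bm (hXr i))).mul f2)).add hg
      (MB.const_mul hg _ (f5 i)))
  refine ⟨Ch.tch (MO_UL hg h hs hsr) (SB.bm hN.sb) hN.lb hl.ch, fun w => ?_, fun i => ?_⟩
  · rw [eq1 w]
    exact (hP w).sb.mul hUi.sb
  · have e : (fun (w : W) (y : Fin n → ℝ) => pd (AV.tl μ s r N l w) i y)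
        = fun w y => UL μ s r (fun y' => N y' * l w y') y * pd (fun y => (UL μ s r N y)⁻¹) i y
          + pd (UL μ s r (fun y' => N y' * l w y')) i y * (UL μ s r N y)⁻¹ := by
      funext w y
      rw [eq1 w, LS.pd_mul (hP w).sb.differentiable hUi.sb.differentiable]
    rw [e]
    exact (f2.mul (MB.of_bm hg (SB.bm (hUi.sb.pd i)))).add hg
      ((f6 i).mul (MB.of_bm hg (SB.bm hUi.sb)))

omit [IsProbabilityMeasure γ] in
theorem ms_tl [IsProbabilityMeasure γ] (hg : Out γ g) (h : CSupp μ R) (hs : 0 < s) (hsr : s ≤ r)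
    (hN : Pos N) (hl : SC γ g l) (w : W) :
    ms μ r (UL μ s r N) (tl μ s r N l) w = ms μ s N l w := by
  unfold ms
  have e : (fun y => UL μ s r N y * tl μ s r N l w y)
      = fun y => UL μ s r (fun y' => N y' * l w y') y * (fun _ => (1 : ℝ)) y := by
    funext y
    rw [tl_mul hg h hs hsr hN l w y, mul_one]
  rw [e, ((thK n μ R h).1 s r hs hsr).2.2.2.2.2 _ _ ((SB.bm hN.sb).mul (hl.ch.bm w)) (BM.const 1)]
  congr 1
  funext y
  rw [PH_const, mul_one]

/-- the posterior of the transported channel -/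
theorem po_tl (hg : Out γ g) (h : CSupp μ R) (hs : 0 < s) (hsr : s ≤ r)
    (hN : Pos N) (hl : SC γ g l) (w : W) :
    po μ r (UL μ s r N) (tl μ s r N l) w = UL μ s r (po μ s N l w) := by
  funext y
  unfold po
  rw [ms_tl hg h hs hsr hN hl w, tl_mul hg h hs hsr hN l w y,
    UL_cm h hs hsr _ ((SB.bm hN.sb).mul (hl.ch.bm w))]

/-- score form of the pushed Fisher information -/
theorem JF_tl (hg : Out γ g) (h : CSupp μ R) (hs : 0 < s) (hsr : s ≤ r)
    (hN : Pos N) (hl : SC γ g l) :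
    JF γ μ r (UL μ s r N) (tl μ s r N l)
      = ∫ w, EY μ r (fun y => UL μ s r (fun y' => N y' * l w y') y *
        ∑ i, (sN (UL μ s r (fun y' => N y' * l w y')) i y - sN (UL μ s r N) i y) ^ 2) ∂γ := by
  unfold JF
  congr 1
  funext w
  congr 1
  funext y
  have hU := UL_pos (μ := μ) h hs hsr hN
  have hUy := hU.pos y
  have hM := UL_pos (μ := μ) h hs hsr (hl.pos_mul hN w)
  have hMy := hM.pos y
  have hT := SC.tl hg h hs hsr hN hl
  have hTy := hT.ch.pos w y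
  have e0 := tl_mul hg h hs hsr hN l w y
  have e1 : ∀ i, pd (UL μ s r (fun y' => N y' * l w y')) i y
      = UL μ s r N y * pd (tl μ s r N l w) i y + pd (UL μ s r N) i y * tl μ s r N l w y := by
    intro i
    have e2 : UL μ s r (fun y' => N y' * l w y')
        = fun y => UL μ s r N y * tl μ s r N l w y := by
      funext y
      exact (tl_mul hg h hs hsr hN l w y).symm
    rw [e2, LS.pd_mul hU.sb.differentiable (hT.sb w).differentiable]
  rw [Finset.mul_sum, Finset.mul_sum]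
  refine Finset.sum_congr rfl fun i _ => ?_
  unfold sN
  rw [e1 i, ← e0]
  field_simp
  ring

end tr

/-! ### the lower half of Lemma U -/

section low

variable {ρ0 : (Fin n → ℝ) → ℝ} {R : ℝ} {s r : ℝ}
  {N : (Fin n → ℝ) → ℝ} {l : W → (Fin n → ℝ) → ℝ}

/-- entropy and Fisher information along `UL` for a log-concave base -/
theorem he_drop (hLC : LCd ρ0) [IsProbabilityMeasure (mu ρ0)] (h : CSupp (mu ρ0) R)
    (hs : 0 < s) (hsr : s ≤ r) (hN : Pos N) :
    FI (mu ρ0) r (UL (mu ρ0) s r N) ≤ FI (mu ρ0) s N ∧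
    HE (mu ρ0) s N - HE (mu ρ0) r (UL (mu ρ0) s r N) ≤ (r - s) / 2 * FI (mu ρ0) s N := by
  obtain ⟨c1, c2, d1, d2, -⟩ := thU' n (mu ρ0) R h N s r hN hs hsr
  have hself : UL (mu ρ0) s s N = N := (thK n (mu ρ0) R h).2.1 s N hs
  have hUp : ∀ ρ ∈ Icc s r, Pos (UL (mu ρ0) s ρ N) := fun ρ hρ => UL_pos h hs hρ.1 hN
  have hsb : ∀ ρ ∈ Icc s r, ∀ i, SB (sN (UL (mu ρ0) s ρ N) i) := fun ρ hρ i =>
    (((thR' n (mu ρ0) R h).2.2 ρ ρ (hs.trans_le hρ.1) le_rfl).2 _ (hUp ρ hρ)).2.1 i |>.1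
  have hneg : MonotoneOn (fun ρ => -FI (mu ρ0) ρ (UL (mu ρ0) s ρ N)) (Icc s r) := by
    refine mono_of_deriv c2.neg (fun ρ hρ => (d2 ρ hρ).neg) fun ρ hρ => ?_
    have hρ' := Ioo_subset_Icc_self hρ
    have h1 := (thP n ρ0 R hLC inferInstance h ρ (UL (mu ρ0) s ρ N) _ _ (hs.trans hρ.1)
      (hUp ρ hρ') (hsb ρ hρ') (hsb ρ hρ')).1
    have h2 : 0 ≤ GA (mu ρ0) ρ (UL (mu ρ0) s ρ N) := by
      rw [GA_eq_DE (mu ρ0) ρ (hUp ρ hρ')]
      exact E1.DE_nonneg (hUp ρ hρ')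
    linarith
  have hFI : ∀ ρ ∈ Icc s r, FI (mu ρ0) ρ (UL (mu ρ0) s ρ N) ≤ FI (mu ρ0) s N := by
    intro ρ hρ
    have h1 := hneg (left_mem_Icc.2 hsr) hρ hρ.1
    simp only [hself] at h1
    linarith
  refine ⟨hFI r (right_mem_Icc.2 hsr), ?_⟩
  have hmono : MonotoneOn (fun ρ => HE (mu ρ0) ρ (UL (mu ρ0) s ρ N)
      + ρ * (1 / 2 * FI (mu ρ0) s N)) (Icc s r) := by
    refine mono_of_deriv (c1.add (continuousOn_id.mul continuousOn_const))
      (fun ρ hρ => (d1 ρ hρ).add ((hasDerivAt_id ρ).mul_const _)) fun ρ hρ => ?_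
    have h1 := hFI ρ (Ioo_subset_Icc_self hρ)
    linarith
  have h2 := hmono (left_mem_Icc.2 hsr) (right_mem_Icc.2 hsr) hsr
  simp only [hself] at h2
  linarith

variable [IsProbabilityMeasure γ]

/-- entropy drop of all posteriors along `UL`, averaged -/
theorem avg_drop (hg : Out γ g) (hLC : LCd ρ0) [IsProbabilityMeasure (mu ρ0)]
    (h : CSupp (mu ρ0) R) (hs : 0 < s) (hsr : s ≤ r) (hN : Pos N) (hl : SC γ g l) :
    (HE (mu ρ0) s N + Inf γ (mu ρ0) s N l)
      - (HE (mu ρ0) r (UL (mu ρ0) s r N) + Inf γ (mu ρ0) r (UL (mu ρ0) s r N)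
        (tl (mu ρ0) s r N l))
      ≤ (r - s) / 2 * (FI (mu ρ0) s N + JF γ (mu ρ0) s N l) := by
  have hU := UL_pos (μ := mu ρ0) h hs hsr hN
  have hT := SC.tl hg h hs hsr hN hl
  obtain ⟨i1, e1⟩ := avg_he (μ := mu ρ0) (r := s) hg hN hl
  obtain ⟨i2, e2⟩ := avg_fi (μ := mu ρ0) (r := s) hg hN hl
  obtain ⟨i3, e3⟩ := avg_he (μ := mu ρ0) (r := r) hg hU hT
  rw [← e1, ← e2, ← e3, ← integral_sub i1 i3, ← integral_const_mul]
  refine integral_mono (i1.sub i3) (i2.const_mul _) fun w => ?_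
  have hm := ms_pos (μ := mu ρ0) (r := s) hN hl.ch w
  have h1 := (he_drop hLC h hs hsr (po_pos (μ := mu ρ0) (r := s) hN hl w)).2
  have h2 := mul_le_mul_of_nonneg_left h1 hm.le
  show ms (mu ρ0) s N l w * HE (mu ρ0) s (po (mu ρ0) s N l w)
    - ms (mu ρ0) r (UL (mu ρ0) s r N) (tl (mu ρ0) s r N l) w
      * HE (mu ρ0) r (po (mu ρ0) r (UL (mu ρ0) s r N) (tl (mu ρ0) s r N l) w)
    ≤ (r - s) / 2 * (ms (mu ρ0) s N l w * FI (mu ρ0) s (po (mu ρ0) s N l w))
  rw [ms_tl hg h hs hsr hN hl w, po_tl hg h hs hsr hN hl w]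
  linarith only [h2]

/-- **lower half of Lemma U** -/
theorem lowU (hg : Out γ g) (hLC : LCd ρ0) [IsProbabilityMeasure (mu ρ0)]
    (h : CSupp (mu ρ0) R) (hs : 0 < s) (hsr : s ≤ r) (hN : Pos N) (h1 : EY (mu ρ0) s N = 1)
    (hl : SC γ g l) {κ D : ℝ} (hκ : 0 ≤ κ) (hD : DBL (mu ρ0) r κ D) :
    Inf γ (mu ρ0) s N l - (r - s) / 2 * (FI (mu ρ0) s N + JF γ (mu ρ0) s N l)
        - (κ * FI (mu ρ0) s N + D - HE (mu ρ0) s N)
      ≤ κ * JF γ (mu ρ0) r (UL (mu ρ0) s r N) (tl (mu ρ0) s r N l) := by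
  have hU := UL_pos (μ := mu ρ0) h hs hsr hN
  have hT := SC.tl hg h hs hsr hN hl
  have hU1 : EY (mu ρ0) r (UL (mu ρ0) s r N) = 1 := by
    rw [(thPr n (mu ρ0) R h N s r hN hs hsr).1, h1]
  have a1 := avg_drop hg hLC h hs hsr hN hl
  have a2 := chan_lsi hg hU hU1 hT hD
  have a3 := mul_le_mul_of_nonneg_left (he_drop hLC h hs hsr hN).1 hκ
  linarith only [a1, a2, a3]

end low

end Vale.Agent.P245.H468.AV
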