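import Vale.Agent.P245.H916.K4
import Vale.Agent.P245.H401.U1b

/-! # P245 (helper916): upper half of Lemma U for a general smooth channel -/

set_option linter.all false

open MeasureTheory Real Set Filter Topology
open scoped ENNReal ContDiff

namespace Vale.Agent.P245.H468.AV

open LS E1 H468

/-! ### elementary -/

theorem opt_sqrt {A B T : ℝ} (hA : 0 ≤ A) (hB : 0 ≤ B)
    (h : ∀ c : ℝ, 0 < c → T ≤ (c * A + c⁻¹ * B) / 2) : T ≤ √A * √B := by
  rcases hA.eq_or_lt with hA0 | hA0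
  · rw [← hA0, sqrt_zero, zero_mul]
    by_contra hT
    push Not at hT
    have hB1 : 0 < B + 1 := by linarith
    have h1 := h ((B + 1) / T) (div_pos hB1 hT)
    rw [← hA0, mul_zero, zero_add, inv_div, div_mul_eq_mul_div] at h1
    have h2 : T * B / (B + 1) ≤ T := by
      rw [div_le_iff₀ hB1]
      linarith
    linarith
  · rcases hB.eq_or_lt with hB0 | hB0
    · rw [← hB0, sqrt_zero, mul_zero]
      by_contra hT
      push Not at hT
      have h1 := h (T / A) (div_pos hT hA0)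
      rw [← hB0, mul_zero, add_zero, div_mul_cancel₀ _ hA0.ne'] at h1
      linarith
    · have hsA := sqrt_pos.2 hA0
      have hsB := sqrt_pos.2 hB0
      have h1 := h (√B / √A) (div_pos hsB hsA)
      have e1 : √B / √A * A = √A * √B := by
        have : A = √A * √A := (mul_self_sqrt hA).symm
        rw [div_mul_eq_mul_div, div_eq_iff hsA.ne']
        rw [mul_right_comm, mul_self_sqrt hA]
        ring
      have e2 : (√B / √A)⁻¹ * B = √A * √B := by
        rw [inv_div, div_mul_eq_mul_div, div_eq_iff hsB.ne']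
        rw [mul_assoc, mul_self_sqrt hB]
      rw [e1, e2] at h1
      linarith

theorem sum_mul_le' {ι : Type*} [Fintype ι] (a b : ι → ℝ) {c : ℝ} (hc : 0 < c) :
    ∑ i, a i * b i ≤ c / 2 * ∑ i, a i ^ 2 + c⁻¹ / 2 * ∑ i, b i ^ 2 := by
  rw [Finset.mul_sum, Finset.mul_sum, ← Finset.sum_add_distrib]
  refine Finset.sum_le_sum fun i _ => ?_
  have e : c / 2 * a i ^ 2 + c⁻¹ / 2 * b i ^ 2 - a i * b i = c⁻¹ / 2 * (c * a i - b i) ^ 2 := by
    field_simp
    ring
  have h1 : 0 ≤ c⁻¹ / 2 * (c * a i - b i) ^ 2 :=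
    mul_nonneg (div_nonneg (inv_nonneg.2 hc.le) two_pos.le) (sq_nonneg _)
  linarith

variable {n : ℕ} {W : Type*} [MeasurableSpace W] {γ : Measure W} {g : W → ℝ}

section gen

variable {μ : Measure (Fin n → ℝ)} [IsProbabilityMeasure μ] {R : ℝ} {s r : ℝ}

theorem BM.addB {f g : (Fin n → ℝ) → ℝ} (hf : BM f) (hg : BM g) : BM fun y => f y + g y := by
  obtain ⟨C, hC⟩ := hf.2
  obtain ⟨D, hD⟩ := hg.2
  exact ⟨hf.1.add hg.1, C + D, fun y => (abs_add_le _ _).trans (add_le_add (hC y) (hD y))⟩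

theorem EY_sum_bm {ι : Type*} (t : Finset ι) {Φ : ι → (Fin n → ℝ) → ℝ}
    (hΦ : ∀ i ∈ t, BM (Φ i)) (r : ℝ) :
    BM (fun y => ∑ i ∈ t, Φ i y) ∧
      EY μ r (fun y => ∑ i ∈ t, Φ i y) = ∑ i ∈ t, EY μ r (Φ i) := by
  classical
  induction t using Finset.induction_on with
  | empty =>
    simp only [Finset.sum_empty]
    refine ⟨BM.const 0, ?_⟩
    rw [EY_eq_lw_bm (BM.const 0)]
    simp
  | insert i t hi ih =>
    obtain ⟨h1, h2⟩ := ih fun j hj => hΦ j (Finset.mem_insert_of_mem hj)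
    simp only [Finset.sum_insert hi]
    have h3 := hΦ i (Finset.mem_insert_self _ _)
    exact ⟨BM.addB h3 h1, by rw [EY_add_bm h3 h1, h2]⟩

theorem adjU (h : CSupp μ R) (hs : 0 < s) (hsr : s ≤ r) {f Φ : (Fin n → ℝ) → ℝ} (hf : BM f)
    (hΦ : BM Φ) :
    EY μ r (fun y => UL μ s r f y * Φ y) = EY μ s (fun y => f y * PH (r - s) Φ y) :=
  ((thK n μ R h).1 s r hs hsr).2.2.2.2.2 f Φ hf hΦ

variable [IsProbabilityMeasure γ]

/-- Cauchy-Schwarz for families -/
theorem avg_cs (hg : Out γ g) {P : W → (Fin n → ℝ) → ℝ} (hP : MB g P)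
    (hP0 : ∀ w y, 0 ≤ P w y) {ι : Type*} [Fintype ι] {a b : ι → W → (Fin n → ℝ) → ℝ}
    (ha : ∀ i, MB g (a i)) (hb : ∀ i, MB g (b i)) (r : ℝ) :
    ∫ w, EY μ r (fun y => P w y * ∑ i, a i w y * b i w y) ∂γ
      ≤ √(∫ w, EY μ r (fun y => P w y * ∑ i, a i w y ^ 2) ∂γ)
        * √(∫ w, EY μ r (fun y => P w y * ∑ i, b i w y ^ 2) ∂γ) := by
  have mA : MB g fun w y => P w y * ∑ i, a i w y ^ 2 := hP.mul (MB.sum hg _ fun i _ => (ha i).sq)
  have mB : MB g fun w y => P w y * ∑ i, b i w y ^ 2 := hP.mul (MB.sum hg _ fun i _ => (hb i).sq)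
  have mC : MB g fun w y => P w y * ∑ i, a i w y * b i w y :=
    hP.mul (MB.sum hg _ fun i _ => (ha i).mul (hb i))
  have iA := mA.ey_int (μ := μ) hg r
  have iB := mB.ey_int (μ := μ) hg r
  have iC := mC.ey_int (μ := μ) hg r
  refine opt_sqrt (integral_nonneg fun w => EY_nonneg μ r fun y => mul_nonneg (hP0 w y)
      (Finset.sum_nonneg fun i _ => sq_nonneg _))
    (integral_nonneg fun w => EY_nonneg μ r fun y => mul_nonneg (hP0 w y)
      (Finset.sum_nonneg fun i _ => sq_nonneg _)) fun c hc => ?_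
  have key : ∀ w, EY μ r (fun y => P w y * ∑ i, a i w y * b i w y)
      ≤ c / 2 * EY μ r (fun y => P w y * ∑ i, a i w y ^ 2)
        + c⁻¹ / 2 * EY μ r (fun y => P w y * ∑ i, b i w y ^ 2) := by
    intro w
    have b1 : BM fun y => c / 2 * (P w y * ∑ i, a i w y ^ 2) := (BM.const _).mul (mA.left w)
    have b2 : BM fun y => c⁻¹ / 2 * (P w y * ∑ i, b i w y ^ 2) := (BM.const _).mul (mB.left w)
    rw [← EY_const_mul, ← EY_const_mul, ← EY_add_bm b1 b2]
    refine EY_mono_bm (mC.left w) (BM.addB b1 b2) fun y => ?_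
    have h1 := mul_le_mul_of_nonneg_left
      (sum_mul_le' (fun i => a i w y) (fun i => b i w y) hc) (hP0 w y)
    linarith only [h1]
  have h2 := integral_mono iC ((iA.const_mul (c / 2)).add (iB.const_mul (c⁻¹ / 2))) key
  have e : ∫ w, (c / 2 * EY μ r (fun y => P w y * ∑ i, a i w y ^ 2)
        + c⁻¹ / 2 * EY μ r (fun y => P w y * ∑ i, b i w y ^ 2)) ∂γ
      = c / 2 * ∫ w, EY μ r (fun y => P w y * ∑ i, a i w y ^ 2) ∂γ
        + c⁻¹ / 2 * ∫ w, EY μ r (fun y => P w y * ∑ i, b i w y ^ 2) ∂γ := by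
    rw [integral_add (iA.const_mul _) (iB.const_mul _), integral_const_mul, integral_const_mul]
  have h3 := h2.trans (le_of_eq e)
  linarith only [h3]

end gen

/-! ### the upper bound -/

section up

variable {μ : Measure (Fin n → ℝ)} [IsProbabilityMeasure μ] {R : ℝ} {s r : ℝ}
  {N : (Fin n → ℝ) → ℝ} {l : W → (Fin n → ℝ) → ℝ}

/-- score of the channel at level `s` -/
noncomputable def h0w (N : (Fin n → ℝ) → ℝ) (l : W → (Fin n → ℝ) → ℝ) (k : Fin n) (w : W)
    (x : Fin n → ℝ) : ℝ := sN (Mw N l w) k x - sN N k x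

theorem mb_sNMw (hg : Out γ g) (hN : Pos N) (hl : SC γ g l) (k : Fin n) :
    MB g fun w x => sN (Mw N l w) k x := (mb_pdMw hg hN hl k).mul (mb_invMw hg hN hl)

theorem sN_SB (hN : Pos N) (k : Fin n) : SB (sN N k) := hN.div (hN.sb.pd k)

theorem mb_h0w (hg : Out γ g) (hN : Pos N) (hl : SC γ g l) (k : Fin n) :
    MB g (h0w N l k) := (mb_sNMw hg hN hl k).sub hg (MB.of_bm hg (SB.bm (sN_SB hN k)))

theorem hw_sb (h : CSupp μ R) (hs : 0 < s) (hsr : s ≤ r) (hN : Pos N) (hl : SC γ g l)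
    (k : Fin n) (w : W) : SB (hw μ s r N l k w) :=
  (sN_SB (Uw_pos (μ := μ) h hs hsr hN hl w) k).sub (sN_SB (UL_pos (μ := μ) h hs hsr hN) k)

/-- the pushed Fisher information -/
noncomputable def JT (γ : Measure W) (μ : Measure (Fin n → ℝ)) (s r : ℝ) (N : (Fin n → ℝ) → ℝ)
    (l : W → (Fin n → ℝ) → ℝ) : ℝ :=
  ∫ w, EY μ r (fun y => Uw μ s r N l w y * ∑ k, hw μ s r N l k w y ^ 2) ∂γ

variable [IsProbabilityMeasure γ]

theorem mb_hsq (hg : Out γ g) (h : CSupp μ R) (hs : 0 < s) (hsr : s ≤ r) (hN : Pos N)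
    (hl : SC γ g l) : MB g fun w y => ∑ k, hw μ s r N l k w y ^ 2 :=
  MB.sum hg _ fun k _ => (mb_hw hg h hs hsr hN hl k).sq

theorem JT_nonneg (h : CSupp μ R) (hs : 0 < s) (hsr : s ≤ r) (hN : Pos N) (hl : SC γ g l) :
    0 ≤ JT γ μ s r N l :=
  integral_nonneg fun w => EY_nonneg μ r fun y => mul_nonneg
    ((Uw_pos (μ := μ) h hs hsr hN hl w).pos y).le (Finset.sum_nonneg fun i _ => sq_nonneg _)

theorem JT_down (hg : Out γ g) (h : CSupp μ R) (hs : 0 < s) (hsr : s ≤ r) (hN : Pos N)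
    (hl : SC γ g l) : JT γ μ s r N l
      = ∫ w, EY μ s (fun x => Mw N l w x
        * PH (r - s) (fun y => ∑ k, hw μ s r N l k w y ^ 2) x) ∂γ := by
  unfold JT
  congr 1
  funext w
  exact adjU h hs hsr ((mb_Mw hg hN hl).left w) ((mb_hsq hg h hs hsr hN hl).left w)

/-- the exact decomposition of the pushed Fisher information, for one output -/
theorem JT_split (hg : Out γ g) (h : CSupp μ R) (hs : 0 < s) (hsr : s ≤ r) (hN : Pos N)
    (hl : SC γ g l) (w : W) :
    EY μ r (fun y => Uw μ s r N l w y * ∑ k, hw μ s r N l k w y ^ 2)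
      = EY μ s (fun x => Mw N l w x * ∑ k, sN N k x * PH (r - s) (hw μ s r N l k w) x)
        + EY μ s (fun x => Mw N l w x * ∑ k, h0w N l k w x * PH (r - s) (hw μ s r N l k w) x)
        + EY μ r (fun y => Uw μ s r N l w y * ∑ k, (-mm μ s r (Mw N l w) k y)
            * hw μ s r N l k w y)
        - EY μ r (fun y => ∑ k, Uw μ s r N l w y * hw μ s r N l k w y * sN (UL μ s r N) k y) := by
  have hU := UL_pos (μ := μ) h hs hsr hN
  have hW := Uw_pos (μ := μ) h hs hsr hN hl w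
  have hM := Mw_pos hN hl w
  have bU := (mb_Uw (μ := μ) (s := s) (r := r) hg h hN hl).left w
  have bh := fun k => (mb_hw (μ := μ) hg h hs hsr hN hl k).left w
  have bp := fun k => (mb_ULpd (μ := μ) (s := s) (r := r) hg h hN hl k).left w
  have bm := fun k => (mb_mm (μ := μ) hg h hs hsr hN hl k).left w
  have b1 : ∀ k, BM fun y => UL μ s r (pd (Mw N l w) k) y * hw μ s r N l k w y := fun k =>
    (bp k).mul (bh k)
  have B1 := EY_sum_bm (μ := μ) Finset.univ (fun k _ => b1 k) r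
  have b2 : ∀ k, BM fun y => (-1) * mm μ s r (Mw N l w) k y * hw μ s r N l k w y := fun k =>
    ((BM.const (-1)).mul (bm k)).mul (bh k)
  have B2' := EY_sum_bm (μ := μ) Finset.univ (fun k _ => b2 k) r
  have B2 : BM fun y => Uw μ s r N l w y * ∑ k, (-mm μ s r (Mw N l w) k y)
      * hw μ s r N l k w y := by
    have := bU.mul B2'.1
    simpa only [neg_mul, one_mul] using this
  have b3 : ∀ k, BM fun y => Uw μ s r N l w y * hw μ s r N l k w y * sN (UL μ s r N) k y :=
    fun k => (bU.mul (bh k)).mul (SB.bm (sN_SB hU k))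
  have B3 := EY_sum_bm (μ := μ) Finset.univ (fun k _ => b3 k) r
  have e1 : (fun y => Uw μ s r N l w y * ∑ k, hw μ s r N l k w y ^ 2)
      = fun y => ((∑ k, UL μ s r (pd (Mw N l w) k) y * hw μ s r N l k w y)
        + Uw μ s r N l w y * ∑ k, (-mm μ s r (Mw N l w) k y) * hw μ s r N l k w y)
        - ∑ k, Uw μ s r N l w y * hw μ s r N l k w y * sN (UL μ s r N) k y := by
    funext y
    rw [Finset.mul_sum, Finset.mul_sum, ← Finset.sum_add_distrib, ← Finset.sum_sub_distrib]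
    refine Finset.sum_congr rfl fun k _ => ?_
    have hy := (hW.pos y).ne'
    have e2 : UL μ s r (pd (Mw N l w) k) y = Uw μ s r N l w y * us μ s r (Mw N l w) k y := by
      unfold us
      show _ = Uw μ s r N l w y * (UL μ s r (pd (Mw N l w) k) y / Uw μ s r N l w y)
      rw [mul_div_cancel₀ _ hy]
    have e3 : us μ s r (Mw N l w) k y
        = mm μ s r (Mw N l w) k y + hw μ s r N l k w y + sN (UL μ s r N) k y := by
      unfold mm hw
      show us μ s r (Mw N l w) k y = us μ s r (Mw N l w) k y - sN (Uw μ s r N l w) k y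
        + (sN (Uw μ s r N l w) k y - sN (UL μ s r N) k y) + sN (UL μ s r N) k y
      ring
    rw [e2, e3]
    ring
  rw [e1, E1.EY_sub_bm (BM.addB B1.1 B2) B3.1, EY_add_bm B1.1 B2, B1.2]
  congr 2
  -- level `s`
  have hP : ∀ k, BM (PH (r - s) (hw μ s r N l k w)) := fun k => (bh k).ph _
  have c1 : ∀ k, BM fun x => pd (Mw N l w) k x * PH (r - s) (hw μ s r N l k w) x := fun k =>
    (SB.bm (hM.sb.pd k)).mul (hP k)
  have C1 := EY_sum_bm (μ := μ) Finset.univ (fun k _ => c1 k) s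
  have d1 : ∀ k, BM fun x => sN N k x * PH (r - s) (hw μ s r N l k w) x := fun k =>
    (SB.bm (sN_SB hN k)).mul (hP k)
  have D1 := (SB.bm hM.sb).mul (EY_sum_bm (μ := μ) Finset.univ (fun k _ => d1 k) s).1
  have d2 : ∀ k, BM fun x => h0w N l k w x * PH (r - s) (hw μ s r N l k w) x := fun k =>
    ((mb_h0w hg hN hl k).left w).mul (hP k)
  have D2 := (SB.bm hM.sb).mul (EY_sum_bm (μ := μ) Finset.univ (fun k _ => d2 k) s).1
  rw [← EY_add_bm D1 D2]
  have e4 : ∀ k, EY μ r (fun y => UL μ s r (pd (Mw N l w) k) y * hw μ s r N l k w y)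
      = EY μ s (fun x => pd (Mw N l w) k x * PH (r - s) (hw μ s r N l k w) x) := fun k =>
    adjU h hs hsr (SB.bm (hM.sb.pd k)) (bh k)
  simp_rw [e4]
  rw [← C1.2]
  congr 1
  funext x
  rw [Finset.mul_sum, Finset.mul_sum, ← Finset.sum_add_distrib]
  refine Finset.sum_congr rfl fun k _ => ?_
  have hx := (hM.pos x).ne'
  have e5 : pd (Mw N l w) k x = Mw N l w x * sN (Mw N l w) k x := by
    unfold sN
    rw [mul_div_cancel₀ _ hx]
  rw [e5]
  unfold h0w
  ring

/-- averaging bounded functions of the state -/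
theorem avg_M (hg : Out γ g) (hN : Pos N) (hl : SC γ g l) {Ψ : (Fin n → ℝ) → ℝ} (hΨ : BM Ψ)
    (s : ℝ) : ∫ w, EY μ s (fun x => Mw N l w x * Ψ x) ∂γ = EY μ s (fun x => N x * Ψ x) := by
  have h1 : MB g fun w x => Mw N l w x * Ψ x := (mb_Mw hg hN hl).mul (MB.of_bm hg hΨ)
  rw [h1.fub hg s]
  congr 1
  funext x
  have e : (fun w => Mw N l w x * Ψ x) = fun w => (N x * Ψ x) * l w x := by
    funext w
    unfold Mw
    ring
  rw [e, integral_const_mul, hl.ch.one, mul_one]

theorem EY_eq_lw_int {Φ : (Fin n → ℝ) → ℝ} (hm : Measurable Φ) {σ : ℝ}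
    (hi : Integrable Φ (lw μ σ)) : EY μ σ Φ = ∫ y, Φ y ∂(lw μ σ) := by
  unfold EY PH
  have hi' : Integrable (fun q : (Fin n → ℝ) × (Fin n → ℝ) => Φ (q.1 + √σ • q.2))
      (μ.prod (gsn n)) :=
    (integrable_map_measure hm.aestronglyMeasurable (measurable_lwmap σ).aemeasurable).1 hi
  unfold lw
  rw [integral_map (measurable_lwmap σ).aemeasurable hm.aestronglyMeasurable,
    integral_prod _ hi']

/-- averaging functions of exponential growth of the state -/
theorem avg_M' (hg : Out γ g) (h : CSupp μ R) (hN : Pos N) (hl : SC γ g l)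
    {Ψ : (Fin n → ℝ) → ℝ} (hc : Continuous Ψ) (hΨ : EG1 Ψ) (s : ℝ) :
    Integrable (fun w => EY μ s (fun x => Mw N l w x * Ψ x)) γ ∧
    ∫ w, EY μ s (fun x => Mw N l w x * Ψ x) ∂γ = EY μ s (fun x => N x * Ψ x) := by
  have iΨ : Integrable Ψ (lw μ s) := by
    unfold lw
    rw [integrable_map_measure hc.aestronglyMeasurable (measurable_lwmap s).aemeasurable]
    exact hΨ.int_prod h hc (√s)
  obtain ⟨C, hC0, hC⟩ := (SB.bm hN.sb).bdd'
  have hM := mb_Mw hg hN hl
  obtain ⟨K, hK0, hK⟩ := hM.bd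
  have hprod : Integrable (Function.uncurry fun (w : W) (x : Fin n → ℝ) => Mw N l w x * Ψ x)
      (γ.prod (lw μ s)) := by
    have h2 : Integrable (fun q : W × (Fin n → ℝ) => exp (K * g q.1) * |Ψ q.2|)
        (γ.prod (lw μ s)) := (hg.int K).mul_prod iΨ.abs
    refine h2.mono' (hM.meas.mul (hc.measurable.comp measurable_snd)).aestronglyMeasurable
      (Eventually.of_forall fun q => ?_)
    rw [norm_eq_abs]
    show |Mw N l q.1 q.2 * Ψ q.2| ≤ _
    rw [abs_mul]
    exact mul_le_mul_of_nonneg_right (hK q.1 q.2) (abs_nonneg _)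
  have e1 : ∀ w, EY μ s (fun x => Mw N l w x * Ψ x) = ∫ x, Mw N l w x * Ψ x ∂(lw μ s) := by
    intro w
    have hb := hM.left w
    obtain ⟨D, hD⟩ := hb.2
    refine EY_eq_lw_int (hb.1.mul hc.measurable) ?_
    refine (iΨ.abs.const_mul D).mono' (hb.1.mul hc.measurable).aestronglyMeasurable
      (Eventually.of_forall fun x => ?_)
    rw [norm_eq_abs]
    show |Mw N l w x * Ψ x| ≤ D * |Ψ x|
    rw [abs_mul]
    exact mul_le_mul_of_nonneg_right (hD x) (abs_nonneg _)
  have e2 : EY μ s (fun x => N x * Ψ x) = ∫ x, N x * Ψ x ∂(lw μ s) := by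
    refine EY_eq_lw_int (hN.sb.measurable.mul hc.measurable) ?_
    refine (iΨ.abs.const_mul C).mono' (hN.sb.measurable.mul hc.measurable).aestronglyMeasurable
      (Eventually.of_forall fun x => ?_)
    rw [norm_eq_abs]
    show |N x * Ψ x| ≤ C * |Ψ x|
    rw [abs_mul]
    exact mul_le_mul_of_nonneg_right (hC x) (abs_nonneg _)
  simp_rw [e1]
  refine ⟨hprod.integral_prod_left, ?_⟩
  rw [e2, integral_integral_swap hprod]
  congr 1
  funext x
  have e : (fun w => Mw N l w x * Ψ x) = fun w => (N x * Ψ x) * l w x := by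
    funext w
    unfold Mw
    ring
  rw [e, integral_const_mul, hl.ch.one, mul_one]

/-- **upper half of Lemma U**, general smooth channel -/
theorem upU (hg : Out γ g) (h : CSupp μ R) (hs : 0 < s) (hsr : s < r) (hN : Pos N)
    (hl : SC γ g l) {Q : Fin n → Fin n → (Fin n → ℝ) → ℝ} (hQ : ∀ j k, SB (Q j k)) :
    √(JT γ μ s r N l) ≤ √(FI μ s N)
      + √(∫ w, EY μ s (fun x => Mw N l w x *
          ∑ j, (h0w N l j w x - ∑ k, Q j k x * h0w N l k w x) ^ 2) ∂γ)
      + √(EY μ s (fun x => N x * H401.hsq Q x) / (r - s))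
      + √(EY μ s (fun x => N x * ∑ j, H401.dvq μ s N Q j x ^ 2))
      + √(∫ w, EY μ r (fun y => Uw μ s r N l w y * ∑ i, mm μ s r (Mw N l w) i y ^ 2) ∂γ) := by
  have hsr' := hsr.le
  have ht : 0 < r - s := sub_pos.2 hsr
  have hU := UL_pos (μ := μ) h hs hsr' hN
  set t := r - s with htd
  set J := JT γ μ s r N l with hJd
  have hJ0 : 0 ≤ J := JT_nonneg h hs hsr' hN hl
  have mM := mb_Mw hg hN hl
  have mM0 : ∀ w x, 0 ≤ Mw N l w x := fun w x => ((Mw_pos hN hl w).pos x).le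
  have mU := mb_Uw (μ := μ) (s := s) (r := r) hg h hN hl
  have mU0 : ∀ w x, 0 ≤ Uw μ s r N l w x := fun w x =>
    ((Uw_pos (μ := μ) h hs hsr' hN hl w).pos x).le
  have mh := fun k => mb_hw (μ := μ) hg h hs hsr' hN hl k
  have mP : ∀ k, MB g fun w x => PH t (hw μ s r N l k w) x := fun k => (mh k).ph t
  have ms0 : ∀ k, MB (n := n) g fun (w : W) x => sN N k x := fun k =>
    MB.of_bm hg (SB.bm (sN_SB hN k))
  have m0 := fun k => mb_h0w hg hN hl k
  have mmm := fun k => mb_mm (μ := μ) hg h hs hsr' hN hl k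
  have mQ : ∀ j k, MB (n := n) g fun (w : W) x => Q j k x := fun j k =>
    MB.of_bm hg (SB.bm (hQ j k))
  have m1Q : ∀ j, MB g fun w x => h0w N l j w x - ∑ k, Q j k x * h0w N l k w x := fun j =>
    (m0 j).sub hg (MB.sum hg _ fun k _ => (mQ j k).mul (m0 k))
  have mPsq : MB g fun w x => PH t (fun y => ∑ k, hw μ s r N l k w y ^ 2) x :=
    (mb_hsq (μ := μ) hg h hs hsr' hN hl).ph t
  have hjen : ∀ w x, ∑ k, PH t (hw μ s r N l k w) x ^ 2
      ≤ PH t (fun y => ∑ k, hw μ s r N l k w y ^ 2) x := fun w x =>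
    H401.PH_jensen (fun k => hw_sb (μ := μ) h hs hsr' hN hl k w) x
  -- the quantity `E |PH h|² ≤ J`
  have mMP : MB g fun w x => Mw N l w x * ∑ k, PH t (hw μ s r N l k w) x ^ 2 :=
    mM.mul (MB.sum hg _ fun k _ => (mP k).sq)
  have mMPs : MB g fun w x => Mw N l w x * PH t (fun y => ∑ k, hw μ s r N l k w y ^ 2) x :=
    mM.mul mPsq
  have hPJ : ∫ w, EY μ s (fun x => Mw N l w x * ∑ k, PH t (hw μ s r N l k w) x ^ 2) ∂γ ≤ J := by
    rw [hJd, JT_down hg h hs hsr' hN hl]
    refine integral_mono (mMP.ey_int (μ := μ) hg s) (mMPs.ey_int (μ := μ) hg s) fun w => ?_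
    exact EY_mono_bm (mMP.left w) (mMPs.left w) fun x =>
      mul_le_mul_of_nonneg_left (hjen w x) (mM0 w x)
  have hsqPJ := sqrt_le_sqrt hPJ
  -- (A)
  have hFI : ∫ w, EY μ s (fun x => Mw N l w x * ∑ k, sN N k x ^ 2) ∂γ = FI μ s N := by
    rw [avg_M hg hN hl (SB.bm (SB.sum _ fun k _ => (sN_SB hN k).pow 2)) s]
    unfold FI
    congr 1
    funext x
    have hx := (hN.pos x).ne'
    rw [Finset.mul_sum, Finset.sum_div]
    refine Finset.sum_congr rfl fun k _ => ?_
    unfold sN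
    field_simp
  have TA := avg_cs (μ := μ) hg mM mM0 ms0 mP s
  rw [hFI] at TA
  have TA' := TA.trans (mul_le_mul_of_nonneg_left hsqPJ (sqrt_nonneg _))
  -- (B1)
  have TB1 := avg_cs (μ := μ) hg mM mM0 m1Q mP s
  have TB1' := TB1.trans (mul_le_mul_of_nonneg_left hsqPJ (sqrt_nonneg _))
  -- (C)
  have TC := avg_cs (μ := μ) hg mU mU0 (fun k => (mmm k).neg) mh r
  simp only [neg_sq] at TC
  have eJ : ∫ w, EY μ r (fun y => Uw μ s r N l w y * ∑ i, hw μ s r N l i w y ^ 2) ∂γ = J := rfl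
  rw [eJ] at TC
  -- (D)
  have mD : MB g fun w y => ∑ k, Uw μ s r N l w y * hw μ s r N l k w y * sN (UL μ s r N) k y :=
    MB.sum hg _ fun k _ => (mU.mul (mh k)).mul (MB.of_bm hg (SB.bm (sN_SB hU k)))
  have TD : ∫ w, EY μ r (fun y => ∑ k, Uw μ s r N l w y * hw μ s r N l k w y
      * sN (UL μ s r N) k y) ∂γ = 0 := by
    rw [mD.fub hg r]
    have e3 : (fun y => ∫ w, (∑ k, Uw μ s r N l w y * hw μ s r N l k w y
        * sN (UL μ s r N) k y) ∂γ) = fun _ : Fin n → ℝ => 0 := by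
      funext y
      rw [integral_finsetSum _ fun k _ => ((mU.mul (mh k)).int_w hg y).mul_const _]
      refine Finset.sum_eq_zero fun k _ => ?_
      rw [integral_mul_const, int_hw hg h hs hsr' hN hl k y, zero_mul]
    rw [e3, EY_eq_lw_bm (BM.const 0)]
    simp
  -- (B2)
  have mT2 : MB g fun w x => Mw N l w x * ∑ j, ∑ k, Q j k x * h0w N l k w x
      * PH t (hw μ s r N l j w) x :=
    mM.mul (MB.sum hg _ fun j _ => MB.sum hg _ fun k _ => ((mQ j k).mul (m0 k)).mul (mP j))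
  have hqsb : SB (H401.hsq Q) := SB.sum _ fun j _ => SB.sum _ fun k _ => (hQ j k).pow 2
  have mq : MB g fun w x => Mw N l w x * H401.hsq Q x := mM.mul (MB.of_bm hg (SB.bm hqsb))
  have eq1 := avg_M (μ := μ) hg hN hl (SB.bm hqsb) s
  have hdc : ∀ j, Continuous (H401.dvq μ s N Q j) := fun j =>
    continuous_finsetSum _ fun k _ => ((hQ j k).pd k).continuous.add
      ((hQ j k).continuous.mul ((sN_SB hN k).continuous.sub (H401.DV_cont h s k)))
  have hde : ∀ j, EG1 (H401.dvq μ s N Q j) := fun j =>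
    EG1.sum _ fun k _ => (H401.sb_eg ((hQ j k).pd k)).add ((H401.sb_eg (hQ j k)).mul (by
      have e : (fun x => sN N k x - DV μ s k x) = fun x => sN N k x + (-1) * DV μ s k x := by
        funext x; ring
      rw [e]; exact (H401.sb_eg (sN_SB hN k)).add ((H401.DV_eg h s k).const_mul (-1))))
  have hdvc : Continuous fun x => ∑ j, H401.dvq μ s N Q j x ^ 2 :=
    continuous_finsetSum _ fun j _ => (hdc j).pow 2
  have hdve : EG1 fun x => ∑ j, H401.dvq μ s N Q j x ^ 2 := EG1.sum _ fun j _ => by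
    simpa only [pow_two] using (hde j).mul (hde j)
  obtain ⟨iDv, eDv⟩ := avg_M' (μ := μ) hg h hN hl hdvc hdve s
  set q := EY μ s (fun x => N x * H401.hsq Q x) with hqd
  set Dv := EY μ s (fun x => N x * ∑ j, H401.dvq μ s N Q j x ^ 2) with hDvd
  have hq0 : 0 ≤ q / t := div_nonneg (EY_nonneg μ s fun x => mul_nonneg (hN.pos x).le
    (Finset.sum_nonneg fun j _ => Finset.sum_nonneg fun k _ => sq_nonneg _)) ht.le
  have hDv0 : 0 ≤ Dv := EY_nonneg μ s fun x => mul_nonneg (hN.pos x).le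
    (Finset.sum_nonneg fun j _ => sq_nonneg _)
  have iq := mq.ey_int (μ := μ) hg s
  have iP := mMPs.ey_int (μ := μ) hg s
  have iT := mT2.ey_int (μ := μ) hg s
  have hJ' : ∫ w, EY μ s (fun x => Mw N l w x
      * PH t (fun y => ∑ k, hw μ s r N l k w y ^ 2) x) ∂γ = J :=
    (JT_down hg h hs hsr' hN hl).symm
  have step : ∀ c : ℝ, 0 < c → ∀ d : ℝ, 0 < d →
      ∫ w, EY μ s (fun x => Mw N l w x * ∑ j, ∑ k, Q j k x * h0w N l k w x
        * PH t (hw μ s r N l j w) x) ∂γ
      ≤ (c * (q / t) + c⁻¹ * J) / 2 + (d * Dv + d⁻¹ * J) / 2 := by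
    intro c hc d hd
    have key : ∀ w, EY μ s (fun x => Mw N l w x * ∑ j, ∑ k, Q j k x * h0w N l k w x
        * PH t (hw μ s r N l j w) x)
        ≤ (c / 2 / t) * EY μ s (fun x => Mw N l w x * H401.hsq Q x)
          + (d / 2) * EY μ s (fun x => Mw N l w x * ∑ j, H401.dvq μ s N Q j x ^ 2)
          + (c⁻¹ / 2 + d⁻¹ / 2) * EY μ s (fun x => Mw N l w x
            * PH t (fun y => ∑ k, hw μ s r N l k w y ^ 2) x) := by
      intro w
      have k1 := H401.U1_ineq (μ := μ) h hs ht hN (Mw_pos hN hl w) hQ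
        (fun k => hw_sb (μ := μ) h hs hsr' hN hl k w)
      have k2 := (le_abs_self _).trans k1
      set a := EY μ s (fun x => Mw N l w x * H401.hsq Q x) with had
      set b := EY μ s (fun x => Mw N l w x * ∑ j, H401.dvq μ s N Q j x ^ 2) with hbd
      set e := EY μ s (fun x => Mw N l w x
            * PH t (fun y => ∑ k, hw μ s r N l k w y ^ 2) x) with hed
      have ha0 : 0 ≤ a / t := div_nonneg (EY_nonneg μ s fun x => mul_nonneg (mM0 w x)
        (Finset.sum_nonneg fun j _ => Finset.sum_nonneg fun k _ => sq_nonneg _)) ht.le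
      have hb0 : 0 ≤ b := EY_nonneg μ s fun x => mul_nonneg (mM0 w x)
        (Finset.sum_nonneg fun j _ => sq_nonneg _)
      have he0 : 0 ≤ e := EY_nonneg μ s fun x => mul_nonneg (mM0 w x)
        (integral_nonneg fun z => Finset.sum_nonneg fun j _ => sq_nonneg _)
      have s1 : √(a / t) * √e ≤ c / 2 * (a / t) + c⁻¹ / 2 * e := by
        have e1 : c / 2 * (a / t) + c⁻¹ / 2 * e - √(a / t) * √e
            = c⁻¹ / 2 * (c * √(a / t) - √e) ^ 2 := by
          have h1 : √(a / t) ^ 2 = a / t := sq_sqrt ha0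
          have h2 : √e ^ 2 = e := sq_sqrt he0
          have h3 : c⁻¹ / 2 * (c * √(a / t) - √e) ^ 2
              = c / 2 * √(a / t) ^ 2 + c⁻¹ / 2 * √e ^ 2 - √(a / t) * √e := by
            field_simp
            ring
          rw [h3, h1, h2]
        have e2 : 0 ≤ c⁻¹ / 2 * (c * √(a / t) - √e) ^ 2 :=
          mul_nonneg (div_nonneg (inv_nonneg.2 hc.le) two_pos.le) (sq_nonneg _)
        linarith only [e1, e2]
      have s2 : √b * √e ≤ d / 2 * b + d⁻¹ / 2 * e := by
        have e1 : d / 2 * b + d⁻¹ / 2 * e - √b * √e = d⁻¹ / 2 * (d * √b - √e) ^ 2 := by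
          have h1 : √b ^ 2 = b := sq_sqrt hb0
          have h2 : √e ^ 2 = e := sq_sqrt he0
          have h3 : d⁻¹ / 2 * (d * √b - √e) ^ 2
              = d / 2 * √b ^ 2 + d⁻¹ / 2 * √e ^ 2 - √b * √e := by
            field_simp
            ring
          rw [h3, h1, h2]
        have e2 : 0 ≤ d⁻¹ / 2 * (d * √b - √e) ^ 2 :=
          mul_nonneg (div_nonneg (inv_nonneg.2 hd.le) two_pos.le) (sq_nonneg _)
        linarith only [e1, e2]
      have e5 : c / 2 / t * a = c / 2 * (a / t) := by ring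
      have k3 : EY μ s (fun x => Mw N l w x * ∑ j, ∑ k, Q j k x * h0w N l k w x
        * PH t (hw μ s r N l j w) x) ≤ (√(a / t) + √b) * √e := k2
      rw [e5]
      linarith only [k3, s1, s2]
    have i1 : Integrable (fun w => (c / 2 / t) * EY μ s (fun x => Mw N l w x * H401.hsq Q x)
          + (d / 2) * EY μ s (fun x => Mw N l w x * ∑ j, H401.dvq μ s N Q j x ^ 2)) γ :=
      (iq.const_mul _).add (iDv.const_mul _)
    have h2 := integral_mono iT (i1.add (iP.const_mul (c⁻¹ / 2 + d⁻¹ / 2))) key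
    have e6 : ∫ w, ((c / 2 / t) * EY μ s (fun x => Mw N l w x * H401.hsq Q x)
          + (d / 2) * EY μ s (fun x => Mw N l w x * ∑ j, H401.dvq μ s N Q j x ^ 2)
          + (c⁻¹ / 2 + d⁻¹ / 2) * EY μ s (fun x => Mw N l w x
            * PH t (fun y => ∑ k, hw μ s r N l k w y ^ 2) x)) ∂γ
        = (c / 2 / t) * q + (d / 2) * Dv + (c⁻¹ / 2 + d⁻¹ / 2) * J := by
      rw [integral_add i1 (iP.const_mul _), integral_add (iq.const_mul _) (iDv.const_mul _),
        integral_const_mul, integral_const_mul, integral_const_mul, eq1, eDv, hJ']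
    have h3 := h2.trans (le_of_eq e6)
    have e7 : c / 2 / t * q = c / 2 * (q / t) := by ring
    rw [e7] at h3
    linarith only [h3]
  have TB2 : ∫ w, EY μ s (fun x => Mw N l w x * ∑ j, ∑ k, Q j k x * h0w N l k w x
        * PH t (hw μ s r N l j w) x) ∂γ ≤ √(q / t) * √J + √Dv * √J := by
    have s1 : ∀ d : ℝ, 0 < d → ∫ w, EY μ s (fun x => Mw N l w x * ∑ j, ∑ k, Q j k x
        * h0w N l k w x * PH t (hw μ s r N l j w) x) ∂γ - (d * Dv + d⁻¹ * J) / 2
        ≤ √(q / t) * √J := fun d hd => opt_sqrt hq0 hJ0 fun c hc => by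
      have := step c hc d hd
      linarith only [this]
    have s2 : ∫ w, EY μ s (fun x => Mw N l w x * ∑ j, ∑ k, Q j k x
        * h0w N l k w x * PH t (hw μ s r N l j w) x) ∂γ - √(q / t) * √J ≤ √Dv * √J :=
      opt_sqrt hDv0 hJ0 fun d hd => by
        have := s1 d hd
        linarith only [this]
    linarith only [s2]
  -- decomposition of `J`
  have mTA : MB g fun w x => Mw N l w x * ∑ k, sN N k x * PH t (hw μ s r N l k w) x :=
    mM.mul (MB.sum hg _ fun k _ => (ms0 k).mul (mP k))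
  have mTB : MB g fun w x => Mw N l w x * ∑ k, h0w N l k w x * PH t (hw μ s r N l k w) x :=
    mM.mul (MB.sum hg _ fun k _ => (m0 k).mul (mP k))
  have mTC : MB g fun w y => Uw μ s r N l w y * ∑ k, (-mm μ s r (Mw N l w) k y)
      * hw μ s r N l k w y := mU.mul (MB.sum hg _ fun k _ => ((mmm k).neg).mul (mh k))
  have mTB1 : MB g fun w x => Mw N l w x * ∑ j, (h0w N l j w x - ∑ k, Q j k x * h0w N l k w x)
      * PH t (hw μ s r N l j w) x := mM.mul (MB.sum hg _ fun k _ => (m1Q k).mul (mP k))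
  have iA := mTA.ey_int (μ := μ) hg s
  have iB := mTB.ey_int (μ := μ) hg s
  have iC := mTC.ey_int (μ := μ) hg r
  have iD := mD.ey_int (μ := μ) hg r
  have iB1 := mTB1.ey_int (μ := μ) hg s
  have hJsplit : J = ∫ w, EY μ s (fun x => Mw N l w x * ∑ k, sN N k x
        * PH t (hw μ s r N l k w) x) ∂γ
      + ∫ w, EY μ s (fun x => Mw N l w x * ∑ k, h0w N l k w x
        * PH t (hw μ s r N l k w) x) ∂γ
      + ∫ w, EY μ r (fun y => Uw μ s r N l w y * ∑ k, (-mm μ s r (Mw N l w) k y)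
        * hw μ s r N l k w y) ∂γ := by
    have e1 : J = ∫ w, (EY μ s (fun x => Mw N l w x * ∑ k, sN N k x
        * PH t (hw μ s r N l k w) x)
      + EY μ s (fun x => Mw N l w x * ∑ k, h0w N l k w x * PH t (hw μ s r N l k w) x)
      + EY μ r (fun y => Uw μ s r N l w y * ∑ k, (-mm μ s r (Mw N l w) k y)
        * hw μ s r N l k w y)
      - EY μ r (fun y => ∑ k, Uw μ s r N l w y * hw μ s r N l k w y
        * sN (UL μ s r N) k y)) ∂γ := by
      rw [hJd]
      unfold JT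
      congr 1
      funext w
      exact JT_split hg h hs hsr' hN hl w
    have iAB : Integrable (fun w => EY μ s (fun x => Mw N l w x * ∑ k, sN N k x
        * PH t (hw μ s r N l k w) x)
      + EY μ s (fun x => Mw N l w x * ∑ k, h0w N l k w x * PH t (hw μ s r N l k w) x)) γ :=
      iA.add iB
    have iABC : Integrable (fun w => EY μ s (fun x => Mw N l w x * ∑ k, sN N k x
        * PH t (hw μ s r N l k w) x)
      + EY μ s (fun x => Mw N l w x * ∑ k, h0w N l k w x * PH t (hw μ s r N l k w) x)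
      + EY μ r (fun y => Uw μ s r N l w y * ∑ k, (-mm μ s r (Mw N l w) k y)
        * hw μ s r N l k w y)) γ := iAB.add iC
    rw [e1, integral_sub iABC iD, integral_add iAB iC, integral_add iA iB, TD, sub_zero]
  have hBsplit : ∫ w, EY μ s (fun x => Mw N l w x * ∑ k, h0w N l k w x
        * PH t (hw μ s r N l k w) x) ∂γ
      = ∫ w, EY μ s (fun x => Mw N l w x * ∑ j, (h0w N l j w x - ∑ k, Q j k x * h0w N l k w x)
          * PH t (hw μ s r N l j w) x) ∂γ
        + ∫ w, EY μ s (fun x => Mw N l w x * ∑ j, ∑ k, Q j k x * h0w N l k w x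
          * PH t (hw μ s r N l j w) x) ∂γ := by
    rw [← integral_add iB1 iT]
    congr 1
    funext w
    rw [← EY_add_bm (mTB1.left w) (mT2.left w)]
    congr 1
    funext x
    rw [← mul_add, ← Finset.sum_add_distrib]
    congr 1
    refine Finset.sum_congr rfl fun j _ => ?_
    rw [sub_mul, Finset.sum_mul]
    ring
  have hfin : √J * √J ≤ (√(FI μ s N)
      + √(∫ w, EY μ s (fun x => Mw N l w x *
          ∑ j, (h0w N l j w x - ∑ k, Q j k x * h0w N l k w x) ^ 2) ∂γ)
      + √(q / t) + √Dv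
      + √(∫ w, EY μ r (fun y => Uw μ s r N l w y * ∑ i, mm μ s r (Mw N l w) i y ^ 2) ∂γ))
      * √J := by
    rw [mul_self_sqrt hJ0]
    rw [hBsplit] at hJsplit
    linarith only [hJsplit, TA', TB1', TC, TB2]
  rcases (sqrt_nonneg J).eq_or_lt with h0 | h0
  · rw [← h0]
    positivity
  · exact le_of_mul_le_mul_right hfin h0

end up

end Vale.Agent.P245.H468.AV
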